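import Mathlib

/-!
# S0112 helper library, part 5: an integrable kernel with compactly supported Fourier transform

Pure Fourier analysis on the real line: there is a continuous integrable `κ : ℝ → ℂ` whose
(inverse) Fourier transform is a plateau function `P` (`= 1` on `[-1,1]`, `= 0` off `[-2,2]`,
values in `[0,1]`).
-/

set_option autoImplicit false
open MeasureTheory
open scoped FourierTransform ContDiff

namespace Crest.Agent.S0112

namespace KernelAux

/-- The plateau bump: `1` on `[-1,1]`, `0` off `(-2,2)`. -/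
noncomputable def bump : ContDiffBump (0 : ℝ) := ⟨1, 2, one_pos, one_lt_two⟩

/-- The complexified plateau. -/
noncomputable def Pc : ℝ → ℂ := fun u => ((bump u : ℝ) : ℂ)

lemma Pc_contDiff : ContDiff ℝ ∞ Pc :=
  Complex.ofRealCLM.contDiff.comp bump.contDiff

lemma Pc_hasCompactSupport : HasCompactSupport Pc := by
  have h : HasCompactSupport (fun u : ℝ => bump u) := bump.hasCompactSupport
  exact h.comp_left (g := fun x : ℝ => (x : ℂ)) Complex.ofReal_zero

/-- The plateau as a Schwartz function. -/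
noncomputable def S : SchwartzMap ℝ ℂ := Pc_hasCompactSupport.toSchwartzMap Pc_contDiff

lemma S_coe : (S : ℝ → ℂ) = Pc := rfl

lemma fourier_S_coe : ((𝓕 S : SchwartzMap ℝ ℂ) : ℝ → ℂ) = 𝓕 Pc := by
  rw [SchwartzMap.fourier_coe, S_coe]

lemma continuous_fourier_Pc : Continuous (𝓕 Pc) := by
  rw [← fourier_S_coe]; exact (𝓕 S).continuous

lemma integrable_fourier_Pc : Integrable (𝓕 Pc) := by
  rw [← fourier_S_coe]; exact (𝓕 S).integrable

lemma inversion (u : ℝ) : 𝓕⁻ (𝓕 Pc) u = Pc u := by
  have h := Continuous.fourierInv_fourier_eq (f := Pc) (S_coe ▸ S.continuous)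
    (S_coe ▸ S.integrable) integrable_fourier_Pc
  rw [h]

end KernelAux

open KernelAux in
theorem exists_kernel : ∃ (κ : ℝ → ℂ) (P : ℝ → ℝ), Continuous κ ∧ Integrable κ ∧ Continuous P ∧
    (∀ u, |u| ≤ 1 → P u = 1) ∧ (∀ u, 2 ≤ |u| → P u = 0) ∧ (∀ u, 0 ≤ P u ∧ P u ≤ 1) ∧
    ∀ u : ℝ, ∫ τ : ℝ, κ τ * Complex.exp (Complex.I * ((2 * Real.pi * τ * u : ℝ) : ℂ)) = (P u : ℂ) := by
  refine ⟨𝓕 Pc, fun u => bump u, continuous_fourier_Pc, integrable_fourier_Pc,
    bump.continuous, ?_, ?_, ?_, ?_⟩
  · intro u hu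
    apply bump.one_of_mem_closedBall
    simpa [Metric.mem_closedBall, Real.dist_eq, bump] using hu
  · intro u hu
    apply bump.zero_of_le_dist
    simpa [Real.dist_eq, bump] using hu
  · intro u
    exact ⟨bump.nonneg, bump.le_one⟩
  · intro u
    have h := inversion u
    rw [Real.fourierInv_eq'] at h
    rw [← show Pc u = ((bump u : ℝ) : ℂ) from rfl, ← h]
    congr 1
    ext τ
    simp only [smul_eq_mul]
    rw [mul_comm]
    congr 2
    simp only [RCLike.inner_apply, conj_trivial]
    push_cast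
    ring

end Crest.Agent.S0112
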