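import Crest.Agent.S0112.Calc

/-!
# S0112 helper library, part 3: consequences of the Tomita condition

From the single axiom `ModularDatum.tomita` (the closure of `{(aξ, a⋆ξ)}` is the graph of
`J ∘ exp(D/2)`) we derive: the vacuum `ξ` is fixed by the modular group, and `‖a⋆ξ‖ ≤ e^{β/2} ‖aξ‖`
when `aξ` lies in the spectral subspace of `(-∞, β]`.
-/

set_option autoImplicit false
open Filter Topology Crest.OpAlg
open scoped BoundedContinuousFunction InnerProductSpace

namespace Crest.Agent.S0112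

variable {H : Type*} [NormedAddCommGroup H] [InnerProductSpace ℂ H] [CompleteSpace H]

namespace TomitaAux

omit [CompleteSpace H] in
/-- A conjugate-linear isometric equivalence reverses inner products. -/
theorem inner_J_J (J : H ≃ₗᵢ⋆[ℂ] H) (x y : H) : ⟪J x, J y⟫_ℂ = ⟪y, x⟫_ℂ := by
  rw [inner_eq_sum_norm_sq_div_four (J x) (J y), inner_eq_sum_norm_sq_div_four y x]
  have h1 : J x + J y = J (x + y) := (map_add J x y).symm
  have h2 : J x - J y = J (x - y) := (map_sub J x y).symm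
  have h3 : J x - (RCLike.I : ℂ) • J y = J (x + (RCLike.I : ℂ) • y) := by
    rw [map_add, J.map_smulₛₗ]; simp [sub_eq_add_neg]
  have h4 : J x + (RCLike.I : ℂ) • J y = J (x - (RCLike.I : ℂ) • y) := by
    rw [map_sub, J.map_smulₛₗ]; simp
  rw [h1, h2, h3, h4]
  simp only [LinearIsometryEquiv.norm_map]
  have e1 : ‖y + x‖ = ‖x + y‖ := by rw [add_comm]
  have e2 : ‖y - x‖ = ‖x - y‖ := norm_sub_rev y x
  have e3 : ‖y - (RCLike.I : ℂ) • x‖ = ‖x + (RCLike.I : ℂ) • y‖ := by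
    have : y - (RCLike.I : ℂ) • x = (-(RCLike.I : ℂ)) • (x + (RCLike.I : ℂ) • y) := by
      rw [smul_add, smul_smul]; simp [sub_eq_add_neg, add_comm]
    rw [this, norm_smul]; simp
  have e4 : ‖y + (RCLike.I : ℂ) • x‖ = ‖x - (RCLike.I : ℂ) • y‖ := by
    have : y + (RCLike.I : ℂ) • x = (RCLike.I : ℂ) • (x - (RCLike.I : ℂ) • y) := by
      rw [smul_sub, smul_smul]; simp [add_comm]
    rw [this, norm_smul]; simp
  rw [e1, e2, e3, e4]

/-- Every pair in the Tomita graph satisfies `⟪z, ξ⟫ = ⟪ξ, x⟫`. -/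
theorem graph_inner (S : ModularDatum H) {p : H × H} (hp : S.D.HalfExp p.1 (S.J p.2)) :
    ⟪p.2, S.vac⟫_ℂ = ⟪S.vac, p.1⟫_ℂ := by
  have hmem : p ∈ closure (Set.range fun a : S.M =>
      ((a : H →L[ℂ] H) S.vac, star (a : H →L[ℂ] H) S.vac)) := by
    rw [S.tomita]; exact hp
  have hclosed : IsClosed {q : H × H | ⟪q.2, S.vac⟫_ℂ = ⟪S.vac, q.1⟫_ℂ} :=
    isClosed_eq (by fun_prop) (by fun_prop)
  refine closure_minimal ?_ hclosed hmem
  rintro _ ⟨a, rfl⟩
  show ⟪star (a : H →L[ℂ] H) S.vac, S.vac⟫_ℂ = ⟪S.vac, (a : H →L[ℂ] H) S.vac⟫_ℂ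
  rw [ContinuousLinearMap.star_eq_adjoint, ContinuousLinearMap.adjoint_inner_left]

theorem halfExp_of_mem (S : ModularDatum H) {a : H →L[ℂ] H} (ha : a ∈ S.M) :
    S.D.HalfExp (a S.vac) (S.J (star a S.vac)) := by
  have : (a S.vac, star a S.vac) ∈ {p : H × H | S.D.HalfExp p.1 (S.J p.2)} := by
    rw [← S.tomita]
    exact subset_closure ⟨⟨a, ha⟩, rfl⟩
  exact this

theorem halfExp_vac (S : ModularDatum H) : S.D.HalfExp S.vac (S.J S.vac) := by
  have h := halfExp_of_mem S (one_mem S.M)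
  simpa using h

theorem halfExp_apply (D : LineCalculus H) {x y : H} (h : D.HalfExp x y) (φ : ℝ →ᵇ ℂ) :
    D.HalfExp (D.apply φ x) (D.apply φ y) := by
  intro f g hfg
  rw [apply_comm D f φ y, h f g hfg, apply_comm]

theorem key_inner (S : ModularDatum H) {x z : H} (h : S.D.HalfExp x (S.J z)) (f g : ℝ →ᵇ ℂ)
    (hfg : ∀ u : ℝ, g u = f u * ((Real.exp (u / 2) : ℝ) : ℂ)) :
    ⟪S.J S.vac, S.D.apply g x⟫_ℂ = ⟪S.vac, S.D.apply f x⟫_ℂ := by
  have h1 : S.D.HalfExp (S.D.apply f x) (S.J (S.J (S.D.apply f (S.J z)))) := by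
    rw [S.J_J]; exact halfExp_apply S.D h f
  have h2 := graph_inner S (p := (S.D.apply f x, S.J (S.D.apply f (S.J z)))) h1
  rw [← h2, ← h f g hfg]
  have h3 := inner_J_J S.J (S.D.apply f (S.J z)) (S.J S.vac)
  rw [S.J_J] at h3
  exact h3.symm

theorem halfExp_J_vac (S : ModularDatum H) : S.D.HalfExp (S.J S.vac) S.vac := by
  intro f g hfg
  have hstar : ∀ u : ℝ, (star g) u = (star f) u * ((Real.exp (u / 2) : ℝ) : ℂ) := by
    intro u
    rw [BoundedContinuousFunction.star_apply, BoundedContinuousFunction.star_apply, hfg u,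
      star_mul']
    congr 1
    exact Complex.conj_ofReal _
  have hdense : ∀ x : H,
      ⟪S.J S.vac, S.D.apply (star g) x⟫_ℂ = ⟪S.vac, S.D.apply (star f) x⟫_ℂ := by
    intro x
    have hcl : IsClosed {x : H |
        ⟪S.J S.vac, S.D.apply (star g) x⟫_ℂ = ⟪S.vac, S.D.apply (star f) x⟫_ℂ} :=
      isClosed_eq (by fun_prop) (by fun_prop)
    have hsub : closure (Set.range fun a : S.M => (a : H →L[ℂ] H) S.vac) ⊆
        {x : H | ⟪S.J S.vac, S.D.apply (star g) x⟫_ℂ = ⟪S.vac, S.D.apply (star f) x⟫_ℂ} := by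
      refine closure_minimal ?_ hcl
      rintro _ ⟨a, rfl⟩
      exact key_inner S (halfExp_of_mem S a.2) (star f) (star g) hstar
    exact hsub (by rw [S.cyclic.closure_eq]; exact Set.mem_univ x)
  have h3 : ∀ x : H, ⟪S.D.apply g (S.J S.vac), x⟫_ℂ = ⟪S.D.apply f S.vac, x⟫_ℂ := by
    intro x
    rw [inner_apply_left, inner_apply_left]; exact hdense x
  exact (ext_inner_right ℂ h3).symm

/-- The basic identity: multiplying a function by `e^u` does not change its action on the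
vacuum. -/
theorem apply_vac_shift (S : ModularDatum H) (F G1 G2 : ℝ →ᵇ ℂ)
    (h1 : ∀ u : ℝ, G1 u = F u * ((Real.exp (u / 2) : ℝ) : ℂ))
    (h2 : ∀ u : ℝ, G2 u = G1 u * ((Real.exp (u / 2) : ℝ) : ℂ)) :
    S.D.apply F S.vac = S.D.apply G2 S.vac := by
  rw [halfExp_J_vac S F G1 h1, halfExp_vac S G1 G2 h2]

/-! ### Explicit bounded continuous functions -/

/-- A bounded continuous complex function on the line from a bounded continuous real one. -/
noncomputable def ofRealFn (g : ℝ → ℝ) (hg : Continuous g) (C : ℝ) (hC : ∀ u, |g u| ≤ C) :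
    ℝ →ᵇ ℂ :=
  BoundedContinuousFunction.ofNormedAddCommGroup (fun u => ((g u : ℝ) : ℂ))
    (Complex.continuous_ofReal.comp hg) C
    (fun u => by rw [Complex.norm_real, Real.norm_eq_abs]; exact hC u)

theorem ofRealFn_apply (g : ℝ → ℝ) (hg : Continuous g) (C : ℝ) (hC : ∀ u, |g u| ≤ C) (u : ℝ) :
    ofRealFn g hg C hC u = ((g u : ℝ) : ℂ) := rfl

theorem norm_ofRealFn_le (g : ℝ → ℝ) (hg : Continuous g) (C : ℝ) (hC : ∀ u, |g u| ≤ C)
    (hC0 : 0 ≤ C) : ‖ofRealFn g hg C hC‖ ≤ C := by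
  rw [BoundedContinuousFunction.norm_le hC0]
  intro u
  rw [ofRealFn_apply, Complex.norm_real, Real.norm_eq_abs]; exact hC u

/-- `e^{cu} / (1 + e^u)`. -/
noncomputable def Efun (c u : ℝ) : ℝ := Real.exp (c * u) / (1 + Real.exp u)

theorem continuous_Efun (c : ℝ) : Continuous (Efun c) := by
  unfold Efun
  exact (by fun_prop : Continuous fun u : ℝ => Real.exp (c * u)).div (by fun_prop)
    (fun u => by positivity)

theorem Efun_nonneg (c u : ℝ) : 0 ≤ Efun c u := by unfold Efun; positivity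

theorem Efun_le_one {c : ℝ} (hc0 : 0 ≤ c) (hc1 : c ≤ 1) (u : ℝ) : Efun c u ≤ 1 := by
  unfold Efun
  rw [div_le_one (by positivity)]
  rcases le_total u 0 with h | h
  · have : Real.exp (c * u) ≤ 1 :=
      Real.exp_le_one_iff.mpr (mul_nonpos_of_nonneg_of_nonpos hc0 h)
    linarith [Real.exp_pos u]
  · have : Real.exp (c * u) ≤ Real.exp u := Real.exp_le_exp.mpr (by nlinarith)
    linarith

noncomputable def Ebcf (c : ℝ) (hc0 : 0 ≤ c) (hc1 : c ≤ 1) : ℝ →ᵇ ℂ :=
  ofRealFn (Efun c) (continuous_Efun c) 1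
    (fun u => by rw [abs_of_nonneg (Efun_nonneg c u)]; exact Efun_le_one hc0 hc1 u)

theorem Efun_add_half (c u : ℝ) : Efun (c + 1 / 2) u = Efun c u * Real.exp (u / 2) := by
  unfold Efun
  rw [show (c + 1 / 2) * u = c * u + u / 2 by ring, Real.exp_add]
  ring

/-- `w(u) = (e^u - 1)/(e^u + 1)`. -/
noncomputable def wfun (u : ℝ) : ℝ := Efun 1 u - Efun 0 u

theorem wfun_eq (u : ℝ) : wfun u = (Real.exp u - 1) / (1 + Real.exp u) := by
  unfold wfun Efun; simp [sub_div]

theorem continuous_wfun : Continuous wfun := (continuous_Efun 1).sub (continuous_Efun 0)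

theorem abs_wfun_le_one (u : ℝ) : |wfun u| ≤ 1 := by
  unfold wfun
  rw [abs_le]
  constructor <;>
  linarith [Efun_nonneg 1 u, Efun_nonneg 0 u, Efun_le_one zero_le_one le_rfl u,
    Efun_le_one le_rfl zero_le_one u]

theorem wfun_pos {δ : ℝ} (hδ : 0 < δ) : 0 < wfun δ := by
  rw [wfun_eq]
  apply div_pos _ (by positivity)
  linarith [Real.add_one_lt_exp (ne_of_gt hδ)]

theorem wfun_sq_ge {δ u : ℝ} (hδ : 0 < δ) (hu : δ ≤ |u|) : wfun δ ^ 2 ≤ wfun u ^ 2 := by
  have hpos : 0 ≤ wfun δ := (wfun_pos hδ).le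
  rcases le_abs.mp hu with h | h
  · have h2 : wfun δ ≤ wfun u := by
      rw [wfun_eq, wfun_eq, div_le_div_iff₀ (by positivity) (by positivity)]
      have := Real.exp_le_exp.mpr h
      nlinarith [Real.exp_pos δ, Real.exp_pos u]
    exact pow_le_pow_left₀ hpos h2 2
  · have h2 : wfun δ ≤ - wfun u := by
      rw [wfun_eq, wfun_eq, ← neg_div, div_le_div_iff₀ (by positivity) (by positivity)]
      have h1 : Real.exp u * Real.exp δ ≤ 1 := by
        rw [← Real.exp_add]; exact Real.exp_le_one_iff.mpr (by linarith)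
      nlinarith [Real.exp_pos δ, Real.exp_pos u]
    calc wfun δ ^ 2 ≤ (- wfun u) ^ 2 := pow_le_pow_left₀ hpos h2 2
      _ = wfun u ^ 2 := by ring

/-- `w / (w² + r)`. -/
noncomputable def kfun (r u : ℝ) : ℝ := wfun u / (wfun u ^ 2 + r)

theorem continuous_kfun {r : ℝ} (hr : 0 < r) : Continuous (kfun r) := by
  unfold kfun
  exact continuous_wfun.div ((continuous_wfun.pow 2).add continuous_const)
    (fun u => by positivity)

theorem abs_kfun_le {r : ℝ} (hr : 0 < r) (u : ℝ) : |kfun r u| ≤ 1 / r := by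
  unfold kfun
  rw [abs_div, abs_of_pos (by positivity : 0 < wfun u ^ 2 + r)]
  apply div_le_div₀ zero_le_one (abs_wfun_le_one u) hr
  nlinarith [sq_nonneg (wfun u)]

noncomputable def Kbcf (r : ℝ) (hr : 0 < r) : ℝ →ᵇ ℂ :=
  ofRealFn (kfun r) (continuous_kfun hr) (1 / r) (abs_kfun_le hr)

/-- The difference `E₁ - E₀` (the function `w`) as a bounded continuous function. -/
noncomputable def Wbcf : ℝ →ᵇ ℂ := Ebcf 1 zero_le_one le_rfl - Ebcf 0 le_rfl zero_le_one

theorem beta_apply (r : ℝ) (hr : 0 < r) (u : ℝ) :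
    (1 - Kbcf r hr * Wbcf) u = ((r / (wfun u ^ 2 + r) : ℝ) : ℂ) := by
  show (1 : ℂ) - ((kfun r u : ℝ) : ℂ) * (((Efun 1 u : ℝ) : ℂ) - ((Efun 0 u : ℝ) : ℂ)) = _
  rw [← Complex.ofReal_sub, ← Complex.ofReal_mul, ← Complex.ofReal_one, ← Complex.ofReal_sub]
  congr 1
  show 1 - kfun r u * wfun u = _
  unfold kfun
  have : wfun u ^ 2 + r ≠ 0 := by positivity
  field_simp
  ring

theorem apply_W_vac (S : ModularDatum H) : S.D.apply Wbcf S.vac = 0 := by
  have h : S.D.apply (Ebcf 0 le_rfl zero_le_one) S.vac =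
      S.D.apply (Ebcf 1 zero_le_one le_rfl) S.vac := by
    refine apply_vac_shift S _ (Ebcf (1 / 2) (by norm_num) (by norm_num)) _ ?_ ?_
    · intro u
      show ((Efun (1 / 2) u : ℝ) : ℂ) = ((Efun 0 u : ℝ) : ℂ) * ((Real.exp (u / 2) : ℝ) : ℂ)
      rw [← Complex.ofReal_mul, ← Efun_add_half]; norm_num
    · intro u
      show ((Efun 1 u : ℝ) : ℂ) = ((Efun (1 / 2) u : ℝ) : ℂ) * ((Real.exp (u / 2) : ℝ) : ℂ)
      rw [← Complex.ofReal_mul, ← Efun_add_half]; norm_num
  unfold Wbcf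
  rw [apply_sub, h, sub_self]

/-- `e^{min(u,c)/2}` as a bounded continuous function. -/
noncomputable def expCap (c : ℝ) : ℝ →ᵇ ℂ :=
  ofRealFn (fun u => Real.exp (min u c / 2)) (by fun_prop) (Real.exp (c / 2))
    (fun u => by
      rw [abs_of_pos (Real.exp_pos _)]
      exact Real.exp_le_exp.mpr (by have := min_le_right u c; linarith))

theorem expCap_apply (c u : ℝ) : expCap c u = ((Real.exp (min u c / 2) : ℝ) : ℂ) := rfl

theorem norm_expCap_le (c : ℝ) : ‖expCap c‖ ≤ Real.exp (c / 2) :=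
  norm_ofRealFn_le _ _ _ _ (Real.exp_pos _).le

end TomitaAux

/-- The vacuum lies in the spectral subspace of `{0}`. -/
theorem apply_vac_of_zero (S : ModularDatum H) (f : ℝ →ᵇ ℂ) (h0 : f 0 = 0) :
    S.D.apply f S.vac = 0 := by
  have key : ∀ (r : ℝ) (hr : 0 < r), S.D.apply f S.vac =
      S.D.apply (f * (1 - TomitaAux.Kbcf r hr * TomitaAux.Wbcf)) S.vac := by
    intro r hr
    have : f * (1 - TomitaAux.Kbcf r hr * TomitaAux.Wbcf)
        = f - (f * TomitaAux.Kbcf r hr) * TomitaAux.Wbcf := by ring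
    rw [this, apply_sub, apply_mul, TomitaAux.apply_W_vac S, map_zero, sub_zero]
  rw [← norm_eq_zero]
  refine le_antisymm (le_of_forall_pos_le_add ?_) (norm_nonneg _)
  intro ε hε
  rw [zero_add]
  obtain ⟨δ, hδ, hδf⟩ := Metric.continuousAt_iff.mp f.continuous.continuousAt ε hε
  have hω : 0 < TomitaAux.wfun δ ^ 2 := by
    have := TomitaAux.wfun_pos hδ; positivity
  have hfn : 0 ≤ ‖f‖ := norm_nonneg f
  have hr : 0 < ε * TomitaAux.wfun δ ^ 2 / (‖f‖ + 1) := by positivity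
  have hbound : ‖f * (1 - TomitaAux.Kbcf _ hr * TomitaAux.Wbcf)‖ ≤ ε := by
    rw [BoundedContinuousFunction.norm_le hε.le]
    intro u
    rw [BoundedContinuousFunction.mul_apply, TomitaAux.beta_apply, norm_mul, Complex.norm_real,
      Real.norm_eq_abs]
    have hden : 0 < TomitaAux.wfun u ^ 2 + ε * TomitaAux.wfun δ ^ 2 / (‖f‖ + 1) := by positivity
    rw [abs_of_pos (div_pos hr hden)]
    have hβ1 : ε * TomitaAux.wfun δ ^ 2 / (‖f‖ + 1) /
        (TomitaAux.wfun u ^ 2 + ε * TomitaAux.wfun δ ^ 2 / (‖f‖ + 1)) ≤ 1 := by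
      rw [div_le_one hden]; nlinarith [sq_nonneg (TomitaAux.wfun u)]
    rcases lt_or_ge |u| δ with hu | hu
    · have h1 : ‖f u‖ < ε := by
        have := hδf (x := u) (by rwa [Real.dist_eq, sub_zero])
        rwa [h0, dist_zero_right] at this
      calc ‖f u‖ * _ ≤ ε * 1 := mul_le_mul h1.le hβ1 (div_pos hr hden).le hε.le
        _ = ε := mul_one ε
    · have h1 : ‖f u‖ ≤ ‖f‖ := f.norm_coe_le_norm u
      have h2 : ε * TomitaAux.wfun δ ^ 2 / (‖f‖ + 1) /
          (TomitaAux.wfun u ^ 2 + ε * TomitaAux.wfun δ ^ 2 / (‖f‖ + 1)) ≤ ε / (‖f‖ + 1) := by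
        rw [div_le_iff₀ hden]
        have h3 := TomitaAux.wfun_sq_ge hδ hu
        have h4 : 0 ≤ ε / (‖f‖ + 1) := by positivity
        have h5 : ε * TomitaAux.wfun δ ^ 2 / (‖f‖ + 1) = ε / (‖f‖ + 1) * TomitaAux.wfun δ ^ 2 := by
          ring
        rw [h5]
        nlinarith [mul_le_mul_of_nonneg_left h3 h4, mul_nonneg h4 hr.le]
      calc ‖f u‖ * _ ≤ ‖f‖ * (ε / (‖f‖ + 1)) :=
            mul_le_mul h1 h2 (div_pos hr hden).le hfn
        _ ≤ ε := by
            rw [mul_div_assoc', div_le_iff₀ (by positivity)]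
            nlinarith
  calc ‖S.D.apply f S.vac‖
      = ‖S.D.apply (f * (1 - TomitaAux.Kbcf _ hr * TomitaAux.Wbcf)) S.vac‖ := by rw [← key _ hr]
    _ ≤ ‖f * (1 - TomitaAux.Kbcf _ hr * TomitaAux.Wbcf)‖ * ‖S.vac‖ := norm_apply_apply_le _ _ _
    _ ≤ ε * 1 := by rw [S.norm_vac]; exact mul_le_mul_of_nonneg_right hbound zero_le_one
    _ = ε := mul_one ε

theorem apply_vac (S : ModularDatum H) (f : ℝ →ᵇ ℂ) : S.D.apply f S.vac = f 0 • S.vac := by
  have h := apply_vac_of_zero S (f - f 0 • (1 : ℝ →ᵇ ℂ)) (by simp)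
  rw [apply_sub, apply_smul, apply_one] at h
  exact sub_eq_zero.mp h

/-- The vacuum is fixed by the modular unitary group. -/
theorem wave_vac (S : ModularDatum H) (t : ℝ) : S.D.wave t S.vac = S.vac := by
  unfold LineCalculus.wave
  rw [apply_vac, character_apply]
  simp

/-- Tomita bound: if `yξ` has spectral support in `(-∞, β]` then `‖y⋆ξ‖ ≤ e^{β/2} ‖yξ‖`. -/
theorem norm_star_vac_le (S : ModularDatum H) {y : H →L[ℂ] H} (hy : y ∈ S.M) (β : ℝ)
    (hsupp : S.D.SupportedIn (Set.Iic β) (y S.vac)) :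
    ‖star y S.vac‖ ≤ Real.exp (β / 2) * ‖y S.vac‖ := by
  have hHE := TomitaAux.halfExp_of_mem S hy
  have hR : ∀ R : ℝ, β - 1 ≤ R → S.D.apply (cutoff R) (S.J (star y S.vac)) =
      S.D.apply (cutoff R) (S.D.apply (TomitaAux.expCap β) (y S.vac)) := by
    intro R hRβ
    have h1 := hHE (cutoff R) (cutoff R * TomitaAux.expCap (R + 1)) (by
      intro u
      show cutoff R u * TomitaAux.expCap (R + 1) u = _
      rw [TomitaAux.expCap_apply]
      by_cases hu : u ≤ R + 1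
      · rw [min_eq_left hu]
      · have hu2 : R + 1 < u := not_le.mp hu
        rw [cutoff_eq_zero (le_trans hu2.le (le_abs_self u))]; simp)
    rw [h1, ← apply_mul]
    apply supportedIn_apply_congr S.D hsupp
    intro u hu
    have hu' : u ≤ β := hu
    show cutoff R u * TomitaAux.expCap (R + 1) u = cutoff R u * TomitaAux.expCap β u
    rw [TomitaAux.expCap_apply, TomitaAux.expCap_apply, min_eq_left (by linarith),
      min_eq_left hu']
  have hlim1 := tendsto_cutoff S.D (S.J (star y S.vac))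
  have hlim2 := tendsto_cutoff S.D (S.D.apply (TomitaAux.expCap β) (y S.vac))
  have heq : S.J (star y S.vac) = S.D.apply (TomitaAux.expCap β) (y S.vac) := by
    refine tendsto_nhds_unique hlim1 (hlim2.congr' ?_)
    filter_upwards [eventually_ge_atTop (β - 1)] with R hRβ
    exact (hR R hRβ).symm
  calc ‖star y S.vac‖ = ‖S.J (star y S.vac)‖ := (S.J.norm_map _).symm
    _ = ‖S.D.apply (TomitaAux.expCap β) (y S.vac)‖ := by rw [heq]
    _ ≤ ‖TomitaAux.expCap β‖ * ‖y S.vac‖ := norm_apply_apply_le _ _ _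
    _ ≤ Real.exp (β / 2) * ‖y S.vac‖ :=
        mul_le_mul_of_nonneg_right (TomitaAux.norm_expCap_le β) (norm_nonneg _)

end Crest.Agent.S0112
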