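import Crest.Agent.S0112.Calc
import Crest.Agent.S0112.Tomita
import Crest.Agent.S0112.Kernel

/-!
# S0112 helper library, part 6: smearing an operator along the modular flow

For an integrable kernel `κ` the operator `∫ κ(τ) σ_{ρτ}(a) dτ` belongs to `M` when `a` does, has
norm at most `‖κ‖₁ ‖a‖`, and maps the vacuum to `K(D) aξ` with `K(u) = ∫ κ(τ) e^{iρτu} dτ`.
With the kernel of `exists_kernel` this gives bounded maps of `M` into the spectral subspaces of
windows.
-/

set_option autoImplicit false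
open Filter Topology MeasureTheory Crest.OpAlg
open scoped BoundedContinuousFunction InnerProductSpace

namespace Crest.Agent.S0112

variable {H : Type*} [NormedAddCommGroup H] [InnerProductSpace ℂ H] [CompleteSpace H]

namespace SmearAux

/-! ### Integrating a bounded strongly continuous family of operators against a kernel -/

theorem integrable_fam {k : ℝ → ℂ} (hk : Integrable k) {G : ℝ → H →L[ℂ] H} {C : ℝ}
    (hG : ∀ x, Continuous fun τ => G τ x) (hC : ∀ τ, ‖G τ‖ ≤ C) (x : H) :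
    Integrable (fun τ => k τ • G τ x) := by
  refine Integrable.mono' (hk.norm.mul_const (C * ‖x‖)) ?_ ?_
  · exact hk.aestronglyMeasurable.smul (hG x).aestronglyMeasurable
  · refine Eventually.of_forall fun τ => ?_
    rw [norm_smul]
    exact mul_le_mul_of_nonneg_left ((G τ).le_of_opNorm_le (hC τ) x) (norm_nonneg _)

/-- The operator `x ↦ ∫ k(τ) • G_τ x dτ`. -/
noncomputable def wintL (k : ℝ → ℂ) (hk : Integrable k) (G : ℝ → H →L[ℂ] H) (C : ℝ)
    (hG : ∀ x, Continuous fun τ => G τ x) (hC : ∀ τ, ‖G τ‖ ≤ C) : H →L[ℂ] H :=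
  LinearMap.mkContinuous
    { toFun := fun x => ∫ τ, k τ • G τ x
      map_add' := fun x y => by
        simp only [map_add, smul_add]
        exact integral_add (integrable_fam hk hG hC x) (integrable_fam hk hG hC y)
      map_smul' := fun c x => by
        simp only [map_smul, RingHom.id_apply]
        rw [← integral_smul]
        congr 1; ext τ; rw [smul_comm] }
    ((∫ τ, ‖k τ‖) * C)
    (fun x => by
      show ‖∫ τ, k τ • G τ x‖ ≤ (∫ τ, ‖k τ‖) * C * ‖x‖
      calc ‖∫ τ, k τ • G τ x‖ ≤ ∫ τ, ‖k τ‖ * (C * ‖x‖) := by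
            refine norm_integral_le_of_norm_le (hk.norm.mul_const _)
              (Eventually.of_forall fun τ => ?_)
            rw [norm_smul]
            exact mul_le_mul_of_nonneg_left ((G τ).le_of_opNorm_le (hC τ) x) (norm_nonneg _)
        _ = (∫ τ, ‖k τ‖) * C * ‖x‖ := by rw [integral_mul_const]; ring)

theorem wintL_apply (k : ℝ → ℂ) (hk : Integrable k) (G : ℝ → H →L[ℂ] H) (C : ℝ)
    (hG : ∀ x, Continuous fun τ => G τ x) (hC : ∀ τ, ‖G τ‖ ≤ C) (x : H) :
    wintL k hk G C hG hC x = ∫ τ, k τ • G τ x := rfl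

theorem norm_wintL_le (k : ℝ → ℂ) (hk : Integrable k) (G : ℝ → H →L[ℂ] H) (C : ℝ)
    (hG : ∀ x, Continuous fun τ => G τ x) (hC : ∀ τ, ‖G τ‖ ≤ C) :
    ‖wintL k hk G C hG hC‖ ≤ (∫ τ, ‖k τ‖) * C := by
  have hC0 : 0 ≤ C := (norm_nonneg _).trans (hC 0)
  exact LinearMap.mkContinuous_norm_le _
    (mul_nonneg (integral_nonneg fun _ => norm_nonneg _) hC0) _

/-- If all `G τ` belong to a von Neumann algebra then so does the integrated operator. -/
theorem wintL_mem (M : VonNeumannAlgebra H) (k : ℝ → ℂ) (hk : Integrable k)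
    (G : ℝ → H →L[ℂ] H) (C : ℝ)
    (hG : ∀ x, Continuous fun τ => G τ x) (hC : ∀ τ, ‖G τ‖ ≤ C) (hM : ∀ τ, G τ ∈ M) :
    wintL k hk G C hG hC ∈ M := by
  rw [← VonNeumannAlgebra.commutant_commutant M, VonNeumannAlgebra.mem_commutant_iff]
  intro b hb
  rw [VonNeumannAlgebra.mem_commutant_iff] at hb
  ext x
  show b (wintL k hk G C hG hC x) = wintL k hk G C hG hC (b x)
  rw [wintL_apply, wintL_apply, ← ContinuousLinearMap.integral_comp_comm b
    (integrable_fam hk hG hC x)]
  congr 1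
  ext τ
  rw [map_smul]
  congr 1
  have := hb (G τ) (hM τ)
  have h2 := congrArg (fun T : H →L[ℂ] H => T x) this
  simpa using h2.symm

/-! ### The calculus as a continuous linear map in the function -/

/-- `f ↦ f(D) x₀` as a continuous linear map on bounded continuous functions. -/
noncomputable def applyAt (D : LineCalculus H) (x₀ : H) : (ℝ →ᵇ ℂ) →L[ℂ] H :=
  LinearMap.mkContinuous
    { toFun := fun f => D.apply f x₀
      map_add' := fun f g => apply_add D f g x₀
      map_smul' := fun c f => apply_smul D c f x₀ }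
    ‖x₀‖ (fun f => by
      show ‖D.apply f x₀‖ ≤ ‖x₀‖ * ‖f‖
      rw [mul_comm]; exact norm_apply_apply_le D f x₀)

theorem applyAt_apply (D : LineCalculus H) (x₀ : H) (f : ℝ →ᵇ ℂ) :
    applyAt D x₀ f = D.apply f x₀ := rfl

theorem norm_wave_le (D : LineCalculus H) (t : ℝ) : ‖D.wave t‖ ≤ 1 :=
  ContinuousLinearMap.opNorm_le_bound _ zero_le_one (fun x => by rw [norm_wave, one_mul])

/-! ### Continuity of `t ↦ character t * cutoff R` in the sup norm -/

theorem norm_exp_sub_exp_le (a b : ℝ) :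
    ‖Complex.exp (Complex.I * (a : ℂ)) - Complex.exp (Complex.I * (b : ℂ))‖ ≤ |a - b| := by
  have h : Complex.exp (Complex.I * (a : ℂ)) - Complex.exp (Complex.I * (b : ℂ))
      = Complex.exp (Complex.I * (b : ℂ)) * (Complex.exp (Complex.I * ((a - b : ℝ) : ℂ)) - 1) := by
    rw [mul_sub, mul_one, ← Complex.exp_add]
    congr 2
    push_cast
    ring
  rw [h, norm_mul]
  have h1 : ‖Complex.exp (Complex.I * (b : ℂ))‖ = 1 := by
    rw [mul_comm]; exact Complex.norm_exp_ofReal_mul_I b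
  rw [h1, one_mul]
  exact Real.norm_exp_I_mul_ofReal_sub_one_le

theorem dist_character_mul_cutoff_le (R t t' : ℝ) :
    dist (LineCalculus.character t * cutoff R) (LineCalculus.character t' * cutoff R)
      ≤ (|R| + 1) * dist t t' := by
  rw [BoundedContinuousFunction.dist_le (mul_nonneg (by positivity) dist_nonneg)]
  intro u
  rw [dist_eq_norm, BoundedContinuousFunction.mul_apply, BoundedContinuousFunction.mul_apply,
    ← sub_mul, norm_mul, character_apply, character_apply, Real.dist_eq]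
  by_cases hu : R + 1 ≤ |u|
  · rw [cutoff_eq_zero hu, norm_zero, mul_zero]
    positivity
  · rw [not_le] at hu
    have h1 := norm_exp_sub_exp_le (t * u) (t' * u)
    have h2 : |t * u - t' * u| = |t - t'| * |u| := by rw [← sub_mul, abs_mul]
    have h3 : |u| ≤ |R| + 1 := by have := le_abs_self R; linarith
    have h4 := norm_cutoff_apply_le R u
    calc ‖Complex.exp (Complex.I * ((t * u : ℝ) : ℂ)) - Complex.exp (Complex.I * ((t' * u : ℝ) : ℂ))‖
          * ‖cutoff R u‖ ≤ (|t - t'| * |u|) * 1 := by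
            rw [← h2]
            exact mul_le_mul h1 h4 (norm_nonneg _) (abs_nonneg _)
      _ ≤ (|R| + 1) * |t - t'| := by
            rw [mul_one, mul_comm]
            exact mul_le_mul_of_nonneg_right h3 (abs_nonneg _)

theorem continuous_character_mul_cutoff (R : ℝ) :
    Continuous fun t : ℝ => LineCalculus.character t * cutoff R := by
  have : LipschitzWith ⟨|R| + 1, by positivity⟩
      (fun t : ℝ => LineCalculus.character t * cutoff R) :=
    LipschitzWith.of_dist_le_mul fun t t' => dist_character_mul_cutoff_le R t t'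
  exact this.continuous

theorem norm_character_mul_cutoff_le (R t : ℝ) : ‖LineCalculus.character t * cutoff R‖ ≤ 1 := by
  calc ‖LineCalculus.character t * cutoff R‖ ≤ ‖LineCalculus.character t‖ * ‖cutoff R‖ :=
        norm_mul_le _ _
    _ ≤ 1 * 1 := mul_le_mul (norm_character_le t) (norm_cutoff_le R) (norm_nonneg _) zero_le_one
    _ = 1 := one_mul 1

theorem integrable_char_cutoff {k : ℝ → ℂ} (hk : Integrable k) (ρ R : ℝ) :
    Integrable (fun τ : ℝ => k τ • (LineCalculus.character (ρ * τ) * cutoff R)) := by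
  refine Integrable.mono' hk.norm ?_ ?_
  · exact hk.aestronglyMeasurable.smul
      ((continuous_character_mul_cutoff R).comp
        (continuous_const.mul continuous_id)).aestronglyMeasurable
  · refine Eventually.of_forall fun τ => ?_
    rw [norm_smul]
    calc ‖k τ‖ * ‖LineCalculus.character (ρ * τ) * cutoff R‖ ≤ ‖k τ‖ * 1 :=
          mul_le_mul_of_nonneg_left (norm_character_mul_cutoff_le R _) (norm_nonneg _)
      _ = ‖k τ‖ := mul_one _

theorem integral_char_cutoff {k : ℝ → ℂ} (hk : Integrable k) (ρ R : ℝ) (K : ℝ →ᵇ ℂ)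
    (hK : ∀ u : ℝ, ∫ τ, k τ * Complex.exp (Complex.I * ((ρ * τ * u : ℝ) : ℂ)) = K u) :
    ∫ τ, k τ • (LineCalculus.character (ρ * τ) * cutoff R) = K * cutoff R := by
  ext u
  have h := ContinuousLinearMap.integral_comp_comm (BoundedContinuousFunction.evalCLM ℂ u)
    (integrable_char_cutoff hk ρ R)
  simp only [BoundedContinuousFunction.evalCLM_apply] at h
  rw [← h, BoundedContinuousFunction.mul_apply, ← hK u, ← integral_mul_const]
  congr 1
  ext τ
  simp only [BoundedContinuousFunction.coe_smul, BoundedContinuousFunction.mul_apply,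
    character_apply, smul_eq_mul]
  ring

theorem integral_wave_cutoff (D : LineCalculus H) {k : ℝ → ℂ} (hk : Integrable k) (ρ R : ℝ)
    (K : ℝ →ᵇ ℂ)
    (hK : ∀ u : ℝ, ∫ τ, k τ * Complex.exp (Complex.I * ((ρ * τ * u : ℝ) : ℂ)) = K u) (x₀ : H) :
    ∫ τ, k τ • D.wave (ρ * τ) (D.apply (cutoff R) x₀) = D.apply K (D.apply (cutoff R) x₀) := by
  have h1 := ContinuousLinearMap.integral_comp_comm (applyAt D x₀) (integrable_char_cutoff hk ρ R)
  rw [integral_char_cutoff hk ρ R K hK] at h1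
  rw [← apply_mul, ← applyAt_apply D x₀ (K * cutoff R), ← h1]
  congr 1
  ext τ
  rw [map_smul, applyAt_apply, apply_mul]
  rfl

theorem continuous_wave_scaled (D : LineCalculus H) (ρ : ℝ) (x : H) :
    Continuous fun τ : ℝ => D.wave (ρ * τ) x :=
  (continuous_wave D x).comp (continuous_const.mul continuous_id)

/-- The Fourier-type integral of the unitary group is a function of `D`. -/
theorem wintL_wave_eq (D : LineCalculus H) {k : ℝ → ℂ} (hk : Integrable k) (ρ : ℝ) (K : ℝ →ᵇ ℂ)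
    (hK : ∀ u : ℝ, ∫ τ, k τ * Complex.exp (Complex.I * ((ρ * τ * u : ℝ) : ℂ)) = K u) :
    wintL k hk (fun τ => D.wave (ρ * τ)) 1 (continuous_wave_scaled D ρ)
      (fun _ => norm_wave_le D _) = D.apply K := by
  ext x₀
  set W := wintL k hk (fun τ => D.wave (ρ * τ)) 1 (continuous_wave_scaled D ρ)
      (fun _ => norm_wave_le D _) with hW
  have h1 : Tendsto (fun R : ℝ => W (D.apply (cutoff R) x₀)) atTop (𝓝 (W x₀)) :=
    (W.continuous.tendsto _).comp (tendsto_cutoff D x₀)
  have h2 : Tendsto (fun R : ℝ => D.apply K (D.apply (cutoff R) x₀)) atTop (𝓝 (D.apply K x₀)) :=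
    ((D.apply K).continuous.tendsto _).comp (tendsto_cutoff D x₀)
  have h3 : (fun R : ℝ => W (D.apply (cutoff R) x₀))
      = fun R : ℝ => D.apply K (D.apply (cutoff R) x₀) :=
    funext fun R => integral_wave_cutoff D hk ρ R K hK x₀
  rw [h3] at h1
  exact tendsto_nhds_unique h1 h2

/-! ### The smeared operator -/

theorem continuous_flow_scaled (D : LineCalculus H) (ρ : ℝ) (a : H →L[ℂ] H) (x : H) :
    Continuous fun τ : ℝ => (D.wave (ρ * τ) * a * D.wave (-(ρ * τ))) x := by
  have hv : Continuous fun t : ℝ => a (D.wave (-t) x) :=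
    a.continuous.comp ((continuous_wave D x).comp continuous_neg)
  exact (continuous_wave_comp D hv).comp (continuous_const.mul continuous_id)

theorem norm_flow_le (D : LineCalculus H) (t : ℝ) (a : H →L[ℂ] H) :
    ‖D.wave t * a * D.wave (-t)‖ ≤ ‖a‖ := by
  calc ‖D.wave t * a * D.wave (-t)‖ ≤ ‖D.wave t * a‖ * ‖D.wave (-t)‖ := norm_mul_le _ _
    _ ≤ (‖D.wave t‖ * ‖a‖) * ‖D.wave (-t)‖ :=
        mul_le_mul_of_nonneg_right (norm_mul_le _ _) (norm_nonneg _)
    _ ≤ (1 * ‖a‖) * 1 :=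
        mul_le_mul (mul_le_mul_of_nonneg_right (norm_wave_le D t) (norm_nonneg _))
          (norm_wave_le D _) (norm_nonneg _) (by positivity)
    _ = ‖a‖ := by ring

/-- The smeared operator `∫ k(τ) σ_{ρτ}(a) dτ`. -/
noncomputable def smear (D : LineCalculus H) (k : ℝ → ℂ) (hk : Integrable k) (ρ : ℝ)
    (a : H →L[ℂ] H) : H →L[ℂ] H :=
  wintL k hk (fun τ => D.wave (ρ * τ) * a * D.wave (-(ρ * τ))) ‖a‖
    (continuous_flow_scaled D ρ a) (fun _ => norm_flow_le D _ a)

theorem norm_smear_le (D : LineCalculus H) (k : ℝ → ℂ) (hk : Integrable k) (ρ : ℝ)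
    (a : H →L[ℂ] H) : ‖smear D k hk ρ a‖ ≤ (∫ τ, ‖k τ‖) * ‖a‖ :=
  norm_wintL_le _ _ _ _ _ _

theorem smear_mem (S : ModularDatum H) (k : ℝ → ℂ) (hk : Integrable k) (ρ : ℝ)
    {a : H →L[ℂ] H} (ha : a ∈ S.M) : smear S.D k hk ρ a ∈ S.M :=
  wintL_mem S.M _ _ _ _ _ _ (fun τ => S.flow_mem (ρ * τ) a ha)

theorem smear_vac (S : ModularDatum H) {k : ℝ → ℂ} (hk : Integrable k) (ρ : ℝ) (K : ℝ →ᵇ ℂ)
    (hK : ∀ u : ℝ, ∫ τ, k τ * Complex.exp (Complex.I * ((ρ * τ * u : ℝ) : ℂ)) = K u)
    (a : H →L[ℂ] H) : smear S.D k hk ρ a S.vac = S.D.apply K (a S.vac) := by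
  rw [← wintL_wave_eq S.D hk ρ K hK, wintL_apply]
  show ∫ τ, k τ • (S.D.wave (ρ * τ) * a * S.D.wave (-(ρ * τ))) S.vac = _
  congr 1
  ext τ
  show k τ • S.D.wave (ρ * τ) (a (S.D.wave (-(ρ * τ)) S.vac)) = _
  rw [wave_vac]

end SmearAux

open SmearAux

/-- Window smearing: a map `Φ` of bounded operators, of norm at most `K₀` (a universal constant),
preserving `M`, which acts on vectors `aξ` as `P(D)` for a plateau function `P` that is `1` on
`[s-δ, s+δ]` and `0` off `[s-2δ, s+2δ]`. -/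
theorem exists_window_smear : ∃ K₀ : ℝ, 0 < K₀ ∧ ∀ (S : ModularDatum H) (s δ : ℝ), 0 < δ →
    ∃ (Φ : (H →L[ℂ] H) → (H →L[ℂ] H)) (P : ℝ →ᵇ ℂ),
      (∀ a ∈ S.M, Φ a ∈ S.M) ∧ (∀ a, ‖Φ a‖ ≤ K₀ * ‖a‖) ∧
      (∀ a, Φ a S.vac = S.D.apply P (a S.vac)) ∧
      (∀ u ∈ Set.Icc (s - δ) (s + δ), P u = 1) ∧
      (∀ u, u ∉ Set.Icc (s - 2 * δ) (s + 2 * δ) → P u = 0) ∧ ‖P‖ ≤ 1 := by
  obtain ⟨κ, P₀, hκc, hκi, hP₀c, hP1, hP0, hP01, hFT⟩ := exists_kernel
  have hκ0 : (0 : ℝ) ≤ ∫ τ, ‖κ τ‖ := integral_nonneg (fun τ => norm_nonneg _)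
  refine ⟨(∫ τ, ‖κ τ‖) + 1, by linarith, ?_⟩
  intro S s δ hδ
  set ρ : ℝ := 2 * Real.pi / δ with hρ
  -- the modulated kernel
  set k : ℝ → ℂ := fun τ => κ τ * Complex.exp (-(Complex.I * ((ρ * τ * s : ℝ) : ℂ))) with hk_def
  have hnorm : ∀ τ, ‖k τ‖ = ‖κ τ‖ := by
    intro τ
    rw [hk_def]
    simp only [norm_mul]
    rw [Complex.norm_exp]
    simp
  have hk : Integrable k := by
    refine Integrable.mono' hκi.norm ?_ (Eventually.of_forall fun τ => (hnorm τ).le)
    exact hκi.aestronglyMeasurable.mul (by fun_prop : Continuous fun τ : ℝ =>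
      Complex.exp (-(Complex.I * ((ρ * τ * s : ℝ) : ℂ)))).aestronglyMeasurable
  have hknorm : (∫ τ, ‖k τ‖) = ∫ τ, ‖κ τ‖ := by
    congr 1; ext τ; exact hnorm τ
  -- the plateau
  let P : ℝ →ᵇ ℂ := BoundedContinuousFunction.ofNormedAddCommGroup
    (fun u : ℝ => ((P₀ ((u - s) / δ) : ℝ) : ℂ)) (by fun_prop) 1 (fun u => by
      rw [Complex.norm_real, Real.norm_eq_abs, abs_of_nonneg (hP01 _).1]
      exact (hP01 _).2)
  have hPapp : ∀ u, P u = ((P₀ ((u - s) / δ) : ℝ) : ℂ) := fun u => rfl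
  have hK : ∀ u : ℝ, ∫ τ, k τ * Complex.exp (Complex.I * ((ρ * τ * u : ℝ) : ℂ)) = P u := by
    intro u
    rw [hPapp, ← hFT ((u - s) / δ)]
    congr 1
    ext τ
    rw [hk_def]
    simp only
    rw [mul_assoc, ← Complex.exp_add]
    congr 2
    rw [hρ]
    push_cast
    field_simp
    ring
  refine ⟨fun a => smear S.D k hk ρ a, P, ?_, ?_, ?_, ?_, ?_, ?_⟩
  · intro a ha
    exact smear_mem S k hk ρ ha
  · intro a
    refine (norm_smear_le S.D k hk ρ a).trans ?_
    rw [hknorm]
    exact mul_le_mul_of_nonneg_right (by linarith) (norm_nonneg _)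
  · intro a
    exact smear_vac S hk ρ P hK a
  · intro u hu
    rw [hPapp, hP1]
    · simp
    · rw [abs_div, abs_of_pos hδ, div_le_one hδ, abs_le]
      constructor <;> linarith [hu.1, hu.2]
  · intro u hu
    rw [hPapp, hP0]
    · simp
    · rw [abs_div, abs_of_pos hδ, le_div_iff₀ hδ]
      rw [Set.mem_Icc, not_and_or, not_le, not_le] at hu
      rcases hu with hu | hu
      · rw [abs_of_neg (by linarith)]; linarith
      · rw [abs_of_pos (by linarith)]; linarith
  · rw [BoundedContinuousFunction.norm_le zero_le_one]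
    intro u
    rw [hPapp, Complex.norm_real, Real.norm_eq_abs, abs_of_nonneg (hP01 _).1]
    exact (hP01 _).2

end Crest.Agent.S0112
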