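import Mathlib

/-!
# S0112 helper library, part 7: bounded truncation inside a von Neumann algebra

For `X` in a von Neumann algebra `M` and `θ > 0`, the operator `b = X (1 + θ X⋆X)⁻¹` lies in `M`,
has norm at most `1/(2√θ)`, and `‖Xx - bx‖ ≤ (√θ/2) ‖X⋆X x‖` for every vector `x`.
-/

set_option autoImplicit false

namespace Crest.Agent.S0112

variable {H : Type*} [NormedAddCommGroup H] [InnerProductSpace ℂ H] [CompleteSpace H]

namespace TruncateAux

/-- `⟪X⋆X x, x⟫ = ‖X x‖²`. -/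
lemma inner_star_mul_self_left (X : H →L[ℂ] H) (x : H) :
    inner ℂ ((star X * X) x) x = ((‖X x‖ ^ 2 : ℝ) : ℂ) := by
  rw [ContinuousLinearMap.star_eq_adjoint, mul_apply_eq_comp,
    ContinuousLinearMap.adjoint_inner_left, inner_self_eq_norm_sq_to_K]
  push_cast
  rfl

/-- `re ⟪x, X⋆X x⟫ = ‖X x‖²`. -/
lemma re_inner_star_mul_self_right (X : H →L[ℂ] H) (x : H) :
    RCLike.re (inner ℂ x ((star X * X) x)) = ‖X x‖ ^ 2 := by
  rw [ContinuousLinearMap.star_eq_adjoint, mul_apply_eq_comp,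
    ContinuousLinearMap.adjoint_inner_right, inner_self_eq_norm_sq_to_K]
  norm_cast

/-- The operator `W = 1 + θ X⋆X`. -/
noncomputable def W (X : H →L[ℂ] H) (θ : ℝ) : H →L[ℂ] H := 1 + (θ : ℂ) • (star X * X)

lemma W_apply (X : H →L[ℂ] H) (θ : ℝ) (x : H) :
    W X θ x = x + (θ : ℂ) • ((star X * X) x) := by
  simp [W]

lemma inner_W (X : H →L[ℂ] H) (θ : ℝ) (x : H) :
    inner ℂ (W X θ x) x = ((‖x‖ ^ 2 + θ * ‖X x‖ ^ 2 : ℝ) : ℂ) := by
  rw [W_apply, inner_add_left, inner_smul_left, inner_star_mul_self_left,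
    inner_self_eq_norm_sq_to_K]
  simp

lemma isUnit_W (X : H →L[ℂ] H) {θ : ℝ} (hθ : 0 < θ) : IsUnit (W X θ) := by
  refine ContinuousLinearMap.isUnit_of_forall_le_norm_inner_map (𝕜 := ℂ) (W X θ) (c := 1)
    one_pos fun x => ?_
  rw [inner_W, Complex.norm_real, Real.norm_eq_abs, NNReal.coe_one, mul_one]
  have h1 : 0 ≤ θ * ‖X x‖ ^ 2 := by positivity
  have h2 : 0 ≤ ‖x‖ ^ 2 := by positivity
  rw [abs_of_nonneg (by linarith)]
  linarith

/-- Key estimate: `4 θ ‖X η‖² ≤ ‖W η‖²`. -/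
lemma four_mul_le_norm_W_sq (X : H →L[ℂ] H) {θ : ℝ} (hθ : 0 < θ) (η : H) :
    4 * θ * ‖X η‖ ^ 2 ≤ ‖W X θ η‖ ^ 2 := by
  set Y : H := (star X * X) η with hY
  have hW : W X θ η = η + (θ : ℂ) • Y := W_apply X θ η
  have hre : RCLike.re (inner ℂ η ((θ : ℂ) • Y)) = θ * ‖X η‖ ^ 2 := by
    rw [inner_smul_right, hY]
    have := re_inner_star_mul_self_right X η
    simp only [RCLike.re_to_complex] at this ⊢
    rw [Complex.re_ofReal_mul, this]
  have hnorm : ‖(θ : ℂ) • Y‖ = θ * ‖Y‖ := by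
    rw [norm_smul, Complex.norm_real, Real.norm_eq_abs, abs_of_pos hθ]
  have hsq : ‖W X θ η‖ ^ 2 = ‖η‖ ^ 2 + 2 * (θ * ‖X η‖ ^ 2) + (θ * ‖Y‖) ^ 2 := by
    rw [hW, norm_add_sq (𝕜 := ℂ), hre, hnorm]
  have hcs : ‖X η‖ ^ 2 ≤ ‖η‖ * ‖Y‖ := by
    have h := re_inner_star_mul_self_right X η
    rw [← h]
    exact re_inner_le_norm η Y
  rw [hsq]
  nlinarith [sq_nonneg (‖η‖ - θ * ‖Y‖), norm_nonneg η, norm_nonneg Y, norm_nonneg (X η)]

lemma norm_le_of_W (X : H →L[ℂ] H) {θ : ℝ} (hθ : 0 < θ) (η : H) :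
    ‖X η‖ ≤ 1 / (2 * Real.sqrt θ) * ‖W X θ η‖ := by
  have hs : 0 < Real.sqrt θ := Real.sqrt_pos.mpr hθ
  have h4 := four_mul_le_norm_W_sq X hθ η
  have hsq : (2 * Real.sqrt θ * ‖X η‖) ^ 2 ≤ ‖W X θ η‖ ^ 2 := by
    have : (2 * Real.sqrt θ * ‖X η‖) ^ 2 = 4 * θ * ‖X η‖ ^ 2 := by
      rw [mul_pow, mul_pow, Real.sq_sqrt hθ.le]; ring
    rw [this]; exact h4
  have hle : 2 * Real.sqrt θ * ‖X η‖ ≤ ‖W X θ η‖ :=
    (pow_le_pow_iff_left₀ (by positivity) (norm_nonneg _) two_ne_zero).mp hsq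
  rw [one_div, inv_mul_eq_div, le_div_iff₀ (by positivity)]
  linarith

end TruncateAux

open TruncateAux in
theorem exists_truncation (M : VonNeumannAlgebra H) {X : H →L[ℂ] H} (hX : X ∈ M) {θ : ℝ}
    (hθ : 0 < θ) :
    ∃ b ∈ M, ‖b‖ ≤ 1 / (2 * Real.sqrt θ) ∧
      ∀ x : H, ‖X x - b x‖ ≤ Real.sqrt θ / 2 * ‖(star X * X) x‖ := by
  have hs : 0 < Real.sqrt θ := Real.sqrt_pos.mpr hθ
  obtain ⟨u, hu⟩ := isUnit_W X hθ
  -- the truncated operator
  set b : H →L[ℂ] H := X * (↑u⁻¹ : H →L[ℂ] H) with hb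
  have hWinv : ∀ ζ : H, W X θ ((↑u⁻¹ : H →L[ℂ] H) ζ) = ζ := fun ζ => by
    have h1 : W X θ * (↑u⁻¹ : H →L[ℂ] H) = 1 := by rw [← hu]; exact u.mul_inv
    have := congrArg (fun f : H →L[ℂ] H => f ζ) h1
    simpa using this
  have hinvW : ∀ x : H, (↑u⁻¹ : H →L[ℂ] H) (W X θ x) = x := fun x => by
    have h1 : (↑u⁻¹ : H →L[ℂ] H) * W X θ = 1 := by rw [← hu]; exact u.inv_mul
    have := congrArg (fun f : H →L[ℂ] H => f x) h1
    simpa using this
  have hbW : ∀ x : H, b (W X θ x) = X x := fun x => by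
    rw [hb, mul_apply_eq_comp, hinvW]
  have hnorm : ‖b‖ ≤ 1 / (2 * Real.sqrt θ) := by
    refine ContinuousLinearMap.opNorm_le_bound _ (by positivity) fun ζ => ?_
    have h := norm_le_of_W X hθ ((↑u⁻¹ : H →L[ℂ] H) ζ)
    rw [hWinv] at h
    simpa [hb] using h
  refine ⟨b, ?_, hnorm, ?_⟩
  · -- membership via the double commutant
    rw [← VonNeumannAlgebra.commutant_commutant M, VonNeumannAlgebra.mem_commutant_iff]
    intro g hg
    rw [VonNeumannAlgebra.mem_commutant_iff] at hg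
    have hgX : Commute g X := (hg X hX).symm
    have hgXs : Commute g (star X) := (hg (star X) (star_mem hX)).symm
    have hgW : Commute g (W X θ) := by
      unfold W
      exact (Commute.one_right g).add_right ((hgXs.mul_right hgX).smul_right _)
    have hgu : Commute g (↑u : H →L[ℂ] H) := by rw [hu]; exact hgW
    have hgui : Commute g (↑u⁻¹ : H →L[ℂ] H) := hgu.units_inv_right
    exact hgX.mul_right hgui
  · intro x
    have hx : X x - b x = (θ : ℂ) • b ((star X * X) x) := by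
      have h1 := hbW x
      rw [W_apply, map_add, map_smul] at h1
      rw [← h1]; abel
    rw [hx, norm_smul, Complex.norm_real, Real.norm_eq_abs, abs_of_pos hθ]
    have h2 : ‖b ((star X * X) x)‖ ≤ 1 / (2 * Real.sqrt θ) * ‖(star X * X) x‖ :=
      (b.le_opNorm _).trans (mul_le_mul_of_nonneg_right hnorm (norm_nonneg _))
    have h3 : θ * (1 / (2 * Real.sqrt θ)) = Real.sqrt θ / 2 := by
      have : θ = Real.sqrt θ * Real.sqrt θ := (Real.mul_self_sqrt hθ.le).symm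
      field_simp
      nlinarith [Real.mul_self_sqrt hθ.le]
    calc θ * ‖b ((star X * X) x)‖ ≤ θ * (1 / (2 * Real.sqrt θ) * ‖(star X * X) x‖) :=
          mul_le_mul_of_nonneg_left h2 hθ.le
      _ = Real.sqrt θ / 2 * ‖(star X * X) x‖ := by rw [← mul_assoc, h3]

end Crest.Agent.S0112
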