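import Crest.Agent.S0112.Induct
import Crest.Agent.S0112.Smear
import Crest.Agent.S0112.Truncate

/-!
# S0112 helper library, part 10: normalisation, a priori bounds, and the uniform statement
-/

set_option autoImplicit false
set_option linter.unusedSectionVars false
open Filter Topology Crest.OpAlg
open scoped BoundedContinuousFunction InnerProductSpace

namespace Crest.Agent.S0112

variable {H : Type*} [NormedAddCommGroup H] [InnerProductSpace ℂ H] [CompleteSpace H]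

theorem smul_mem_M (S : ModularDatum H) (c : ℂ) {a : H →L[ℂ] H} (ha : a ∈ S.M) :
    c • a ∈ S.M := by
  have h1 : c • (1 : H →L[ℂ] H) ∈ S.M := by
    have := S.M.toStarSubalgebra.algebraMap_mem c
    rw [Algebra.algebraMap_eq_smul_one] at this
    exact this
  have h2 : c • a = (c • (1 : H →L[ℂ] H)) * a := by
    rw [smul_mul_assoc, one_mul]
  rw [h2]
  exact mul_mem h1 ha

theorem clm_smul_apply (c : ℂ) (A : H →L[ℂ] H) (x : H) : (c • A) x = c • A x := rfl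

/-- Rescaling by a real scalar `r` with `r² N = 1`. -/
theorem normalise_aux (T S₀ : H →L[ℂ] H) (ξ : H) (N r a₀ : ℝ) (hr : r ^ 2 * N = 1) :
    ‖T (((r : ℂ) • S₀) ξ)‖ ^ 2 = r ^ 2 * ‖T (S₀ ξ)‖ ^ 2 ∧
    ‖star ((r : ℂ) • S₀) (((r : ℂ) • S₀) ξ) - (a₀ : ℂ) • ξ‖ ^ 2
      = (r ^ 2) ^ 2 * ‖star S₀ (S₀ ξ) - ((N * a₀ : ℝ) : ℂ) • ξ‖ ^ 2 := by
  have hstar : star ((r : ℂ) • S₀) = (r : ℂ) • star S₀ := by
    rw [star_smul, Complex.star_def, Complex.conj_ofReal]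
  constructor
  · rw [clm_smul_apply, map_smul, norm_smul, mul_pow, Complex.norm_real, Real.norm_eq_abs,
      sq_abs]
  · have e : star ((r : ℂ) • S₀) (((r : ℂ) • S₀) ξ) - (a₀ : ℂ) • ξ
        = ((r ^ 2 : ℝ) : ℂ) • (star S₀ (S₀ ξ) - ((N * a₀ : ℝ) : ℂ) • ξ) := by
      rw [hstar, clm_smul_apply, clm_smul_apply, map_smul, smul_smul, smul_sub, smul_smul]
      have e1 : (r : ℂ) * (r : ℂ) = ((r ^ 2 : ℝ) : ℂ) := by push_cast; ring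
      have e2 : ((r ^ 2 : ℝ) : ℂ) * ((N * a₀ : ℝ) : ℂ) = (a₀ : ℂ) := by
        rw [← Complex.ofReal_mul, ← mul_assoc, hr, one_mul]
      rw [e1, e2]
    rw [e, norm_smul, mul_pow, Complex.norm_real, Real.norm_eq_abs, sq_abs]

section X

variable (S : ModularDatum H) (herg : S.Ergodic) (ω : Ultrafilter ℕ) (hω : (ω : Filter ℕ) ≤ atTop)

include herg hω in
/-- The normalised greedy sum. -/
theorem exists_X (T : H →L[ℂ] H) {y : H →L[ℂ] H} (hy : y ∈ S.M) {K : Set ℝ}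
    (hyK : S.D.SupportedIn K (y S.vac)) (lam A B d : ℝ) (hlam : 0 ≤ lam)
    (hA : ‖y S.vac‖ ^ 2 ≤ A) (hB : ‖star y S.vac‖ ^ 2 ≤ B)
    (hd : d + lam * (4 * A * B) < ultraMean ω (fun t : ℝ => ‖T (S.D.wave t (y S.vac))‖ ^ 2)) :
    ∃ X ∈ S.M, S.D.SupportedIn K (X S.vac) ∧
      d ≤ ‖T (X S.vac)‖ ^ 2
        - lam * ‖star X (X S.vac) - ((‖y S.vac‖ ^ 2 : ℝ) : ℂ) • S.vac‖ ^ 2 := by
  set g := ultraMean ω (fun t : ℝ => ‖T (S.D.wave t (y S.vac))‖ ^ 2) with hg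
  set Q := ‖star y (y S.vac) - ((‖y S.vac‖ ^ 2 : ℝ) : ℂ) • S.vac‖ ^ 2 with hQ
  have hQ0 : 0 ≤ Q := by positivity
  set gap := g - d - lam * (4 * A * B) with hgap
  have hgap0 : 0 < gap := by rw [hgap]; linarith
  set N : ℕ := ⌈lam * Q / gap⌉₊ + 1 with hNdef
  have hN0 : 0 < N := Nat.succ_pos _
  have hNpos : (0 : ℝ) < N := by exact_mod_cast hN0
  have hN1 : lam * Q / gap < N := by
    have := Nat.le_ceil (lam * Q / gap)
    rw [hNdef]; push_cast; linarith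
  have hN2 : lam * Q < gap * N := by
    have := (div_lt_iff₀ hgap0).mp hN1
    linarith
  have hN3 : lam / N * Q < gap := by
    rw [div_mul_eq_mul_div, div_lt_iff₀ hNpos]; exact hN2
  have hd' : d + lam / N * (Q + 4 * A * B * N) < g := by
    have e : lam / N * (Q + 4 * A * B * N) = lam / N * Q + lam * (4 * A * B) := by
      field_simp
    rw [e]; rw [hgap] at hN3; linarith
  obtain ⟨SN, hSNM, hSNK, hSN⟩ := exists_partial_sum S herg ω hω T hy hyK (lam / N) A B d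
    (div_nonneg hlam hNpos.le) hA hB N hd' N le_rfl
  rw [sub_self, mul_zero, zero_mul, mul_zero, zero_mul, add_zero, add_zero] at hSN
  have hr2 : ((Real.sqrt N)⁻¹) ^ 2 = 1 / (N : ℝ) := by
    rw [inv_pow, Real.sq_sqrt hNpos.le, one_div]
  obtain ⟨e1, e2⟩ := normalise_aux T SN S.vac N (Real.sqrt N)⁻¹ (‖y S.vac‖ ^ 2)
    (by rw [hr2]; field_simp)
  refine ⟨(((Real.sqrt N)⁻¹ : ℝ) : ℂ) • SN, smul_mem_M S _ hSNM, ?_, ?_⟩
  · rw [clm_smul_apply]; exact supportedIn_smul S.D _ hSNK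
  · rw [e1, e2, hr2]
    set PP := ‖T (SN S.vac)‖ ^ 2
    set WW := ‖star SN (SN S.vac) - ((N * ‖y S.vac‖ ^ 2 : ℝ) : ℂ) • S.vac‖ ^ 2
    have key : 1 / (N : ℝ) * PP - lam * ((1 / (N : ℝ)) ^ 2 * WW) - d
        = 1 / (N : ℝ) * (PP - lam / N * WW - N * d) := by
      field_simp
    have h0 : 0 ≤ 1 / (N : ℝ) * (PP - lam / N * WW - N * d) :=
      mul_nonneg (by positivity) (by linarith)
    linarith

end X

/-- A priori bounds on the normalised greedy sum. -/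
theorem bounds_aux (T X : H →L[ℂ] H) (ξ : H) (hξ : ‖ξ‖ = 1) (a₀ A lam d : ℝ) (hlam : 0 < lam)
    (hd : 0 ≤ d) (ha₀ : 0 ≤ a₀) (haA : a₀ ≤ A)
    (hX : d ≤ ‖T (X ξ)‖ ^ 2 - lam * ‖star X (X ξ) - (a₀ : ℂ) • ξ‖ ^ 2) :
    d ≤ ‖T (X ξ)‖ ^ 2 ∧ ‖star X (X ξ)‖ ≤ ‖T‖ ^ 2 / lam + 2 * A + 1 := by
  set V := ‖star X (X ξ) - (a₀ : ℂ) • ξ‖ with hV
  have hV0 : 0 ≤ V := norm_nonneg _
  have hlV : 0 ≤ lam * V ^ 2 := by positivity
  refine ⟨by linarith, ?_⟩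
  -- `‖Xξ‖² ≤ V + a₀`
  have h1 : ‖X ξ‖ ^ 2 ≤ V + a₀ := by
    have e1 : ‖X ξ‖ ^ 2 = (⟪ξ, star X (X ξ)⟫_ℂ).re := by
      rw [inner_star_right, norm_sq_eq_re_inner]
    have e2 : star X (X ξ) = (star X (X ξ) - (a₀ : ℂ) • ξ) + (a₀ : ℂ) • ξ := by abel
    have e3 : (⟪ξ, (a₀ : ℂ) • ξ⟫_ℂ).re = a₀ := by
      rw [inner_smul_right, inner_self_eq_ofReal, hξ]
      simp
    have e4 : (⟪ξ, star X (X ξ) - (a₀ : ℂ) • ξ⟫_ℂ).re ≤ V := by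
      calc (⟪ξ, star X (X ξ) - (a₀ : ℂ) • ξ⟫_ℂ).re ≤ ‖⟪ξ, star X (X ξ) - (a₀ : ℂ) • ξ⟫_ℂ‖ :=
            Complex.re_le_norm _
        _ ≤ ‖ξ‖ * ‖star X (X ξ) - (a₀ : ℂ) • ξ‖ := norm_inner_le_norm _ _
        _ = V := by rw [hξ, one_mul]
    rw [e1, e2, inner_add_right, Complex.add_re, e3]
    linarith
  have h2 : ‖T (X ξ)‖ ^ 2 ≤ ‖T‖ ^ 2 * (V + A) := by
    have hT : ‖T (X ξ)‖ ≤ ‖T‖ * ‖X ξ‖ := T.le_opNorm _
    have : ‖T (X ξ)‖ ^ 2 ≤ (‖T‖ * ‖X ξ‖) ^ 2 := pow_le_pow_left₀ (norm_nonneg _) hT 2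
    rw [mul_pow] at this
    have h3 : ‖T‖ ^ 2 * ‖X ξ‖ ^ 2 ≤ ‖T‖ ^ 2 * (V + A) :=
      mul_le_mul_of_nonneg_left (by linarith) (by positivity)
    linarith
  set κ := ‖T‖ ^ 2 / lam with hκ
  have hκ0 : 0 ≤ κ := by positivity
  have hA0 : 0 ≤ A := le_trans ha₀ haA
  have h4 : V ^ 2 ≤ κ * (V + A) := by
    have : lam * V ^ 2 ≤ ‖T‖ ^ 2 * (V + A) := by linarith
    rw [hκ, div_mul_eq_mul_div, le_div_iff₀ hlam]
    linarith
  have h5 : V ≤ κ + A + 1 := by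
    by_contra hcon
    rw [not_le] at hcon
    nlinarith [mul_nonneg hκ0 hA0, mul_nonneg hκ0 hV0]
  have h6 : ‖star X (X ξ)‖ ≤ V + a₀ := by
    have e2 : star X (X ξ) = (star X (X ξ) - (a₀ : ℂ) • ξ) + (a₀ : ℂ) • ξ := by abel
    calc ‖star X (X ξ)‖ = ‖(star X (X ξ) - (a₀ : ℂ) • ξ) + (a₀ : ℂ) • ξ‖ := by rw [← e2]
      _ ≤ ‖star X (X ξ) - (a₀ : ℂ) • ξ‖ + ‖(a₀ : ℂ) • ξ‖ := norm_add_le _ _
      _ = V + a₀ := by
        rw [norm_smul, hξ, mul_one, Complex.norm_real, Real.norm_eq_abs, abs_of_nonneg ha₀]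
  linarith

/-- Cyclicity plus a window smear: approximate a band-limited vector by `yξ` with `y ∈ M` and
`yξ` band-limited in the doubled band. -/
theorem exists_approx (S : ModularDatum H) {K K' : Set ℝ} (Φ : (H →L[ℂ] H) → (H →L[ℂ] H))
    (P : ℝ →ᵇ ℂ) (hΦM : ∀ a ∈ S.M, Φ a ∈ S.M)
    (hΦv : ∀ a, Φ a S.vac = S.D.apply P (a S.vac))
    (hP1 : ∀ u ∈ K, P u = 1) (hP0 : ∀ u, u ∉ K' → P u = 0) (hPn : ‖P‖ ≤ 1)
    {h : H} (hh : S.D.SupportedIn K h) {ε : ℝ} (hε : 0 < ε) :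
    ∃ y ∈ S.M, S.D.SupportedIn K' (y S.vac) ∧ ‖y S.vac - h‖ ≤ ε := by
  obtain ⟨z, ⟨a, rfl⟩, hz⟩ := S.cyclic.exists_dist_lt h hε
  refine ⟨Φ (a : H →L[ℂ] H), hΦM _ a.2, ?_, ?_⟩
  · rw [hΦv]; exact supportedIn_apply_of_zero_off S.D hP0 _
  · rw [hΦv]
    have e : S.D.apply P ((a : H →L[ℂ] H) S.vac) - h
        = S.D.apply P ((a : H →L[ℂ] H) S.vac - h) := by
      rw [map_sub, supportedIn_apply_eq_self S.D hh hP1]
    rw [e]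
    calc ‖S.D.apply P ((a : H →L[ℂ] H) S.vac - h)‖ ≤ ‖P‖ * ‖(a : H →L[ℂ] H) S.vac - h‖ :=
          norm_apply_apply_le S.D P _
      _ ≤ 1 * ‖(a : H →L[ℂ] H) S.vac - h‖ := mul_le_mul_of_nonneg_right hPn (norm_nonneg _)
      _ ≤ ε := by
        rw [one_mul, ← dist_eq_norm, dist_comm]; exact hz.le

/-- Stability of the mean under perturbation of the vector. -/
theorem mean_lower (S : ModularDatum H) (ω : Ultrafilter ℕ) (hω : (ω : Filter ℕ) ≤ atTop)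
    (T : H →L[ℂ] H) (h z : H) (ε c : ℝ) (hz : ‖z - h‖ ≤ ε)
    (hc : c ≤ ultraMean ω (fun t : ℝ => ‖T (S.D.wave t h)‖ ^ 2)) :
    c ≤ 2 * ultraMean ω (fun t : ℝ => ‖T (S.D.wave t z)‖ ^ 2) + 2 * (‖T‖ * ε) ^ 2 := by
  have hε0 : 0 ≤ ε := le_trans (norm_nonneg _) hz
  have hbz := bc_norm_T_wave S T z
  have hbh := bc_norm_T_wave S T h
  have hpt : ∀ t : ℝ, ‖T (S.D.wave t h)‖ ^ 2
      ≤ 2 * ‖T (S.D.wave t z)‖ ^ 2 + 2 * (‖T‖ * ε) ^ 2 := by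
    intro t
    have e : T (S.D.wave t h) = T (S.D.wave t z) - T (S.D.wave t (z - h)) := by
      rw [map_sub, map_sub]; abel
    have h1 : ‖T (S.D.wave t (z - h))‖ ≤ ‖T‖ * ε := by
      calc ‖T (S.D.wave t (z - h))‖ ≤ ‖T‖ * ‖S.D.wave t (z - h)‖ := T.le_opNorm _
        _ = ‖T‖ * ‖z - h‖ := by rw [norm_wave]
        _ ≤ ‖T‖ * ε := mul_le_mul_of_nonneg_left hz (norm_nonneg _)
    have h2 : ‖T (S.D.wave t h)‖ ≤ ‖T (S.D.wave t z)‖ + ‖T‖ * ε := by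
      rw [e]
      exact le_trans (norm_sub_le _ _) (by linarith)
    have h3 : ‖T (S.D.wave t h)‖ ^ 2 ≤ (‖T (S.D.wave t z)‖ + ‖T‖ * ε) ^ 2 :=
      pow_le_pow_left₀ (norm_nonneg _) h2 2
    nlinarith [sq_nonneg (‖T (S.D.wave t z)‖ - ‖T‖ * ε)]
  have hm := ultraMean_mono ω hbh ((hbz.const_mul 2).add (BC.const (2 * (‖T‖ * ε) ^ 2))) hpt
  rw [ultraMean_add ω (hbz.const_mul 2) (BC.const _), ultraMean_const_mul ω 2 hbz,
    ultraMean_const ω hω] at hm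
  linarith

section Main

variable (S : ModularDatum H) (herg : S.Ergodic) (ω : Ultrafilter ℕ) (hω : (ω : Filter ℕ) ≤ atTop)

include herg hω in
/-- The uniform statement: constants `C`, `η` depending only on `T`, `s`, `c`. -/
theorem exists_v (T : H →L[ℂ] H) (s c : ℝ) (hc : 0 < c) :
    ∃ C η : ℝ, 0 < η ∧ ∀ (δ : ℝ) (h : H), 0 < δ → δ ≤ 1 → ‖h‖ = 1 →
      S.D.SupportedIn (Set.Icc (s - δ) (s + δ)) h →
      c ≤ ultraMean ω (fun t : ℝ => ‖T (S.D.wave t h)‖ ^ 2) →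
      ∃ v ∈ S.M, ‖v‖ ≤ C ∧ η ≤ ‖T (v S.vac)‖ ∧
        S.D.SupportedIn (Set.Icc (s - 4 * δ) (s + 4 * δ)) (v S.vac) := by
  obtain ⟨K₀, hK₀, hsmear⟩ := exists_window_smear (H := H)
  -- the constants
  obtain ⟨c₁, hc₁⟩ : ∃ c₁ : ℝ, c₁ = c / 4 := ⟨_, rfl⟩
  have hc₁0 : 0 < c₁ := by rw [hc₁]; positivity
  obtain ⟨A, hA⟩ : ∃ A : ℝ, A = 4 := ⟨_, rfl⟩
  have hA0 : 0 < A := by rw [hA]; norm_num
  obtain ⟨B, hB⟩ : ∃ B : ℝ, B = 4 * Real.exp (|s| + 2) := ⟨_, rfl⟩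
  have hB0 : 0 < B := by rw [hB]; positivity
  obtain ⟨lam, hlam⟩ : ∃ lam : ℝ, lam = c₁ / (16 * A * B) := ⟨_, rfl⟩
  have hlam0 : 0 < lam := by rw [hlam]; positivity
  have hlamAB : lam * (4 * A * B) = c₁ / 4 := by
    rw [hlam]; field_simp; ring
  obtain ⟨d, hd⟩ : ∃ d : ℝ, d = c₁ / 2 := ⟨_, rfl⟩
  have hd0 : 0 < d := by rw [hd]; positivity
  obtain ⟨R₂, hR₂⟩ : ∃ R₂ : ℝ, R₂ = ‖T‖ ^ 2 / lam + 2 * A + 1 := ⟨_, rfl⟩
  have hR₂0 : 0 ≤ R₂ := by rw [hR₂]; positivity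
  obtain ⟨ρ, hρ⟩ : ∃ ρ : ℝ, ρ = Real.sqrt d / ((‖T‖ + 1) * (R₂ + 1)) := ⟨_, rfl⟩
  have hsd0 : 0 < Real.sqrt d := Real.sqrt_pos.mpr hd0
  have hρ0 : 0 < ρ := by rw [hρ]; positivity
  have hρ' : ρ * ((‖T‖ + 1) * (R₂ + 1)) = Real.sqrt d := by
    rw [hρ]; field_simp
  obtain ⟨ε₁, hε₁⟩ : ∃ ε₁ : ℝ, ε₁ = min 1 (Real.sqrt c / (2 * (‖T‖ + 1))) := ⟨_, rfl⟩
  have hsc0 : 0 < Real.sqrt c := Real.sqrt_pos.mpr hc
  have hε₁0 : 0 < ε₁ := by rw [hε₁]; positivity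
  have hε₁1 : ε₁ ≤ 1 := by rw [hε₁]; exact min_le_left _ _
  have hε₁2 : ε₁ ≤ Real.sqrt c / (2 * (‖T‖ + 1)) := by rw [hε₁]; exact min_le_right _ _
  have hTε : (‖T‖ * ε₁) ^ 2 ≤ c / 4 := by
    have h1 : ‖T‖ * ε₁ ≤ Real.sqrt c / 2 := by
      have h2 : ‖T‖ * ε₁ ≤ ‖T‖ * (Real.sqrt c / (2 * (‖T‖ + 1))) :=
        mul_le_mul_of_nonneg_left hε₁2 (norm_nonneg _)
      have h3 : ‖T‖ * (Real.sqrt c / (2 * (‖T‖ + 1))) ≤ Real.sqrt c / 2 := by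
        rw [mul_div_assoc', div_le_div_iff₀ (by positivity) (by positivity)]
        nlinarith [Real.sqrt_nonneg c, norm_nonneg T]
      linarith
    have h4 : (‖T‖ * ε₁) ^ 2 ≤ (Real.sqrt c / 2) ^ 2 :=
      pow_le_pow_left₀ (by positivity) h1 2
    rw [div_pow, Real.sq_sqrt hc.le] at h4
    linarith
  refine ⟨K₀ * (1 / (2 * ρ)), Real.sqrt d / 2, by positivity, ?_⟩
  intro δ h hδ hδ1 hh hband hmean
  -- Step 1: approximate `h` by `yξ`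
  obtain ⟨Φ, P, hΦM, -, hΦv, hP1, hP0, hPn⟩ := hsmear S s δ hδ
  obtain ⟨y, hyM, hyK, hyh⟩ := exists_approx S Φ P hΦM hΦv hP1 hP0 hPn hband hε₁0
  have hy2 : ‖y S.vac‖ ≤ 2 := by
    have e : y S.vac = (y S.vac - h) + h := by abel
    calc ‖y S.vac‖ = ‖(y S.vac - h) + h‖ := by rw [← e]
      _ ≤ ‖y S.vac - h‖ + ‖h‖ := norm_add_le _ _
      _ ≤ 2 := by rw [hh]; linarith
  have hyA : ‖y S.vac‖ ^ 2 ≤ A := by
    have := pow_le_pow_left₀ (norm_nonneg (y S.vac)) hy2 2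
    rw [hA]; linarith
  have hyB : ‖star y S.vac‖ ^ 2 ≤ B := by
    have h1 := norm_star_vac_le S hyM (s + 2 * δ)
      (supportedIn_mono S.D Set.Icc_subset_Iic_self hyK)
    have h2 : Real.exp ((s + 2 * δ) / 2) ≤ Real.exp ((|s| + 2) / 2) := by
      apply Real.exp_le_exp.mpr
      have := le_abs_self s
      linarith
    have h3 : ‖star y S.vac‖ ≤ Real.exp ((|s| + 2) / 2) * 2 := by
      calc ‖star y S.vac‖ ≤ Real.exp ((s + 2 * δ) / 2) * ‖y S.vac‖ := h1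
        _ ≤ Real.exp ((|s| + 2) / 2) * 2 :=
          mul_le_mul h2 hy2 (norm_nonneg _) (Real.exp_pos _).le
    have h4 := pow_le_pow_left₀ (norm_nonneg (star y S.vac)) h3 2
    have h5 : Real.exp ((|s| + 2) / 2) ^ 2 = Real.exp (|s| + 2) := by
      rw [sq, ← Real.exp_add]; congr 1; ring
    rw [mul_pow, h5] at h4
    rw [hB]; linarith
  have hg : c₁ ≤ ultraMean ω (fun t : ℝ => ‖T (S.D.wave t (y S.vac))‖ ^ 2) := by
    have := mean_lower S ω hω T h (y S.vac) ε₁ c hyh hmean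
    rw [hc₁]; linarith
  -- Step 2: the greedy sum
  obtain ⟨X, hXM, hXK, hX⟩ := exists_X S herg ω hω T hyM hyK lam A B d hlam0.le hyA hyB
    (by rw [hlamAB, hd]; linarith)
  -- Step 3: a priori bounds
  obtain ⟨hTX, hXX⟩ := bounds_aux T X S.vac S.norm_vac (‖y S.vac‖ ^ 2) A lam d hlam0 hd0.le
    (by positivity) hyA hX
  rw [← hR₂] at hXX
  have hTX' : Real.sqrt d ≤ ‖T (X S.vac)‖ := by
    have := Real.sqrt_le_sqrt hTX
    rwa [Real.sqrt_sq (norm_nonneg _)] at this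
  -- Step 4: truncate and localise
  obtain ⟨b, hbM, hbn, hbx⟩ := exists_truncation S.M hXM (θ := ρ ^ 2) (by positivity)
  rw [Real.sqrt_sq hρ0.le] at hbn hbx
  obtain ⟨Φ₂, P₂, hΦ₂M, hΦ₂n, hΦ₂v, hP₂1, hP₂0, hP₂n⟩ := hsmear S s (2 * δ) (by positivity)
  refine ⟨Φ₂ b, hΦ₂M b hbM, ?_, ?_, ?_⟩
  · calc ‖Φ₂ b‖ ≤ K₀ * ‖b‖ := hΦ₂n b
      _ ≤ K₀ * (1 / (2 * ρ)) := mul_le_mul_of_nonneg_left hbn hK₀.le
  · rw [hΦ₂v]
    have e1 : S.D.apply P₂ (X S.vac) = X S.vac := supportedIn_apply_eq_self S.D hXK hP₂1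
    have e2 : S.D.apply P₂ (b S.vac) = X S.vac - S.D.apply P₂ (X S.vac - b S.vac) := by
      rw [map_sub, e1]; abel
    have h1 : ‖S.D.apply P₂ (X S.vac - b S.vac)‖ ≤ ρ / 2 * R₂ := by
      calc ‖S.D.apply P₂ (X S.vac - b S.vac)‖ ≤ ‖P₂‖ * ‖X S.vac - b S.vac‖ :=
            norm_apply_apply_le S.D P₂ _
        _ ≤ 1 * ‖X S.vac - b S.vac‖ := mul_le_mul_of_nonneg_right hP₂n (norm_nonneg _)
        _ = ‖X S.vac - b S.vac‖ := one_mul _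
        _ ≤ ρ / 2 * ‖(star X * X) S.vac‖ := hbx S.vac
        _ ≤ ρ / 2 * R₂ := by
          rw [clm_mul_apply]
          exact mul_le_mul_of_nonneg_left hXX (by positivity)
    have h2 : ‖T (S.D.apply P₂ (X S.vac - b S.vac))‖ ≤ ‖T‖ * (ρ / 2 * R₂) :=
      le_trans (T.le_opNorm _) (mul_le_mul_of_nonneg_left h1 (norm_nonneg _))
    have h3 : ‖T‖ * (ρ / 2 * R₂) ≤ Real.sqrt d / 2 := by
      rw [← hρ']
      nlinarith [norm_nonneg T, mul_nonneg hρ0.le (norm_nonneg T), mul_nonneg hρ0.le hR₂0,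
        mul_nonneg (mul_nonneg hρ0.le (norm_nonneg T)) hR₂0]
    rw [e2, map_sub]
    have h4 : ‖T (X S.vac)‖ - ‖T (S.D.apply P₂ (X S.vac - b S.vac))‖
        ≤ ‖T (X S.vac) - T (S.D.apply P₂ (X S.vac - b S.vac))‖ := norm_sub_norm_le _ _
    linarith
  · rw [hΦ₂v]
    refine supportedIn_mono S.D ?_ (supportedIn_apply_of_zero_off S.D hP₂0 _)
    intro u hu
    exact ⟨by linarith [hu.1], by linarith [hu.2]⟩

end Main

end Crest.Agent.S0112
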