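import Crest.Statements.S0112

/-!
# S0112 helper library, part 1: elementary facts about `LineCalculus`

Everything here is about the bounded continuous functional calculus `D.apply`
of the Prelude structure `Crest.OpAlg.LineCalculus`.
-/

set_option autoImplicit false
open Filter Topology Crest.OpAlg
open scoped BoundedContinuousFunction InnerProductSpace

namespace Crest.Agent.S0112

variable {H : Type*} [NormedAddCommGroup H] [InnerProductSpace ℂ H] [CompleteSpace H]

/-! ### Algebra of the calculus -/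

theorem norm_apply_le (D : LineCalculus H) (f : ℝ →ᵇ ℂ) : ‖D.apply f‖ ≤ ‖f‖ :=
  NonUnitalStarAlgHom.norm_apply_le D.apply f

theorem norm_apply_apply_le (D : LineCalculus H) (f : ℝ →ᵇ ℂ) (x : H) :
    ‖D.apply f x‖ ≤ ‖f‖ * ‖x‖ :=
  (D.apply f).le_of_opNorm_le (norm_apply_le D f) x

theorem apply_mul (D : LineCalculus H) (f g : ℝ →ᵇ ℂ) (x : H) :
    D.apply (f * g) x = D.apply f (D.apply g x) := by
  rw [map_mul]; rfl

theorem apply_comm (D : LineCalculus H) (f g : ℝ →ᵇ ℂ) (x : H) :
    D.apply f (D.apply g x) = D.apply g (D.apply f x) := by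
  rw [← apply_mul, ← apply_mul, mul_comm]

theorem apply_one (D : LineCalculus H) (x : H) : D.apply 1 x = x := by
  rw [map_one]; rfl

theorem apply_zero (D : LineCalculus H) (x : H) : D.apply 0 x = 0 := by
  rw [map_zero]; rfl

theorem apply_add (D : LineCalculus H) (f g : ℝ →ᵇ ℂ) (x : H) :
    D.apply (f + g) x = D.apply f x + D.apply g x := by
  rw [map_add]; rfl

theorem apply_sub (D : LineCalculus H) (f g : ℝ →ᵇ ℂ) (x : H) :
    D.apply (f - g) x = D.apply f x - D.apply g x := by
  rw [map_sub]; rfl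

theorem apply_smul (D : LineCalculus H) (c : ℂ) (f : ℝ →ᵇ ℂ) (x : H) :
    D.apply (c • f) x = c • D.apply f x := by
  rw [map_smul]; rfl

theorem adjoint_apply (D : LineCalculus H) (f : ℝ →ᵇ ℂ) :
    ContinuousLinearMap.adjoint (D.apply f) = D.apply (star f) := by
  rw [map_star]; rfl

theorem inner_apply_left (D : LineCalculus H) (f : ℝ →ᵇ ℂ) (x y : H) :
    ⟪D.apply f x, y⟫_ℂ = ⟪x, D.apply (star f) y⟫_ℂ := by
  rw [← adjoint_apply, ContinuousLinearMap.adjoint_inner_right]

theorem inner_apply_right (D : LineCalculus H) (f : ℝ →ᵇ ℂ) (x y : H) :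
    ⟪x, D.apply f y⟫_ℂ = ⟪D.apply (star f) x, y⟫_ℂ := by
  rw [inner_apply_left, star_star]

/-! ### Characters and the unitary group -/

theorem character_apply (t u : ℝ) :
    LineCalculus.character t u = Complex.exp (Complex.I * ((t * u : ℝ) : ℂ)) := rfl

theorem character_mul (t t' : ℝ) :
    LineCalculus.character t * LineCalculus.character t' = LineCalculus.character (t + t') := by
  ext u
  simp only [BoundedContinuousFunction.mul_apply, character_apply]
  rw [← Complex.exp_add]
  congr 1
  push_cast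
  ring

theorem character_zero : LineCalculus.character 0 = 1 := by
  ext u
  simp [character_apply]

theorem star_character (t : ℝ) :
    star (LineCalculus.character t) = LineCalculus.character (-t) := by
  ext u
  show star (LineCalculus.character t u) = LineCalculus.character (-t) u
  simp only [character_apply]
  rw [Complex.star_def, ← Complex.exp_conj]
  congr 1
  simp

theorem norm_character_le (t : ℝ) : ‖LineCalculus.character t‖ ≤ 1 := by
  rw [BoundedContinuousFunction.norm_le zero_le_one]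
  intro u
  rw [character_apply, Complex.norm_exp]
  simp

theorem wave_add (D : LineCalculus H) (t t' : ℝ) (x : H) :
    D.wave (t + t') x = D.wave t (D.wave t' x) := by
  unfold LineCalculus.wave
  rw [← apply_mul, character_mul]

theorem wave_zero (D : LineCalculus H) (x : H) : D.wave 0 x = x := by
  unfold LineCalculus.wave
  rw [character_zero, apply_one]

theorem wave_neg_wave (D : LineCalculus H) (t : ℝ) (x : H) : D.wave (-t) (D.wave t x) = x := by
  rw [← wave_add, neg_add_cancel, wave_zero]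

theorem wave_wave_neg (D : LineCalculus H) (t : ℝ) (x : H) : D.wave t (D.wave (-t) x) = x := by
  rw [← wave_add, add_neg_cancel, wave_zero]

theorem adjoint_wave (D : LineCalculus H) (t : ℝ) :
    ContinuousLinearMap.adjoint (D.wave t) = D.wave (-t) := by
  unfold LineCalculus.wave
  rw [adjoint_apply, star_character]

theorem inner_wave_left (D : LineCalculus H) (t : ℝ) (x y : H) :
    ⟪D.wave t x, y⟫_ℂ = ⟪x, D.wave (-t) y⟫_ℂ := by
  rw [← adjoint_wave, ContinuousLinearMap.adjoint_inner_right]

theorem inner_wave_right (D : LineCalculus H) (t : ℝ) (x y : H) :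
    ⟪x, D.wave t y⟫_ℂ = ⟪D.wave (-t) x, y⟫_ℂ := by
  rw [inner_wave_left, neg_neg]

theorem inner_wave_wave (D : LineCalculus H) (t : ℝ) (x y : H) :
    ⟪D.wave t x, D.wave t y⟫_ℂ = ⟪x, y⟫_ℂ := by
  rw [inner_wave_left, wave_neg_wave]

theorem norm_wave (D : LineCalculus H) (t : ℝ) (x : H) : ‖D.wave t x‖ = ‖x‖ := by
  have h := inner_wave_wave D t x x
  have h2 : ‖D.wave t x‖ ^ 2 = ‖x‖ ^ 2 := by
    have e1 := inner_self_eq_norm_sq_to_K (𝕜 := ℂ) (D.wave t x)
    have e2 := inner_self_eq_norm_sq_to_K (𝕜 := ℂ) x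
    rw [e1, e2] at h
    exact_mod_cast h
  exact (sq_eq_sq₀ (norm_nonneg _) (norm_nonneg _)).mp h2

theorem wave_apply_comm (D : LineCalculus H) (t : ℝ) (f : ℝ →ᵇ ℂ) (x : H) :
    D.wave t (D.apply f x) = D.apply f (D.wave t x) := by
  unfold LineCalculus.wave
  exact apply_comm D _ _ x

/-! ### Cut-offs -/

/-- The trapezoidal cut-off: `1` on `[-R, R]`, `0` off `[-R-1, R+1]`. -/
noncomputable def cutoff (R : ℝ) : ℝ →ᵇ ℂ :=
  BoundedContinuousFunction.ofNormedAddCommGroup
    (fun u : ℝ => ((max 0 (min 1 (R + 1 - |u|)) : ℝ) : ℂ)) (by fun_prop) 1 (fun u => by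
      rw [Complex.norm_real, Real.norm_eq_abs, abs_of_nonneg (le_max_left _ _)]
      exact max_le zero_le_one (min_le_left _ _))

theorem cutoff_apply (R u : ℝ) : cutoff R u = ((max 0 (min 1 (R + 1 - |u|)) : ℝ) : ℂ) := rfl

theorem cutoff_eq_one {R u : ℝ} (h : |u| ≤ R) : cutoff R u = 1 := by
  rw [cutoff_apply, min_eq_left (by linarith), max_eq_right zero_le_one]; simp

theorem cutoff_eq_zero {R u : ℝ} (h : R + 1 ≤ |u|) : cutoff R u = 0 := by
  rw [cutoff_apply, min_eq_right (by linarith), max_eq_left (by linarith)]; simp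

theorem norm_cutoff_apply_le (R u : ℝ) : ‖cutoff R u‖ ≤ 1 := by
  rw [cutoff_apply, Complex.norm_real, Real.norm_eq_abs, abs_of_nonneg (le_max_left _ _)]
  exact max_le zero_le_one (min_le_left _ _)

theorem norm_cutoff_le (R : ℝ) : ‖cutoff R‖ ≤ 1 := by
  rw [BoundedContinuousFunction.norm_le zero_le_one]
  exact norm_cutoff_apply_le R

/-- Cut-offs of `D` converge strongly to the identity. -/
theorem tendsto_cutoff (D : LineCalculus H) (x : H) :
    Tendsto (fun R : ℝ => D.apply (cutoff R) x) atTop (𝓝 x) := by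
  rw [Metric.tendsto_atTop]
  intro ε hε
  obtain ⟨f, hfc, hf⟩ := D.window x (ε / 2) (half_pos hε)
  obtain ⟨R₁, hR₁⟩ : ∃ R₁ : ℝ, ∀ u : ℝ, R₁ < |u| → f u = 0 := by
    have hb : Bornology.IsBounded (tsupport (f : ℝ → ℂ)) := hfc.isCompact.isBounded
    obtain ⟨R₁, hR₁⟩ := hb.subset_closedBall 0
    refine ⟨R₁, fun u hu => ?_⟩
    by_contra hne
    have hmem : u ∈ tsupport (f : ℝ → ℂ) := subset_tsupport _ (Function.mem_support.mpr hne)
    have h2 := hR₁ hmem
    rw [Metric.mem_closedBall, Real.dist_eq, sub_zero] at h2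
    linarith
  refine ⟨R₁, fun R hR => ?_⟩
  have hmul : cutoff R * f = f := by
    ext u
    by_cases hu : |u| ≤ R
    · simp [cutoff_eq_one hu]
    · have h0 : f u = 0 := hR₁ u (by push Not at hu; linarith)
      simp [h0]
  have h1 : D.apply (cutoff R) (D.apply f x) = D.apply f x := by rw [← apply_mul, hmul]
  rw [dist_eq_norm]
  have hsplit : D.apply (cutoff R) x - x
      = D.apply (cutoff R) (x - D.apply f x) + (D.apply f x - x) := by
    rw [map_sub, h1]; abel
  rw [hsplit]
  calc ‖D.apply (cutoff R) (x - D.apply f x) + (D.apply f x - x)‖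
      ≤ ‖D.apply (cutoff R) (x - D.apply f x)‖ + ‖D.apply f x - x‖ := norm_add_le _ _
    _ ≤ 1 * ‖x - D.apply f x‖ + ‖D.apply f x - x‖ := by
        gcongr
        exact (norm_apply_apply_le D _ _).trans
          (mul_le_mul_of_nonneg_right (norm_cutoff_le R) (norm_nonneg _))
    _ < ε := by rw [one_mul, norm_sub_rev]; linarith

/-- Bounded, locally uniform convergence of functions gives strong convergence of operators. -/
theorem tendsto_apply_of_locally_uniform (D : LineCalculus H) {ι : Type*} {l : Filter ι}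
    (F : ι → ℝ →ᵇ ℂ) (f : ℝ →ᵇ ℂ) (B : ℝ) (hB : ∀ᶠ i in l, ‖F i‖ ≤ B)
    (hloc : ∀ R : ℝ, Tendsto (fun i => ‖(F i - f) * cutoff R‖) l (𝓝 0)) (x : H) :
    Tendsto (fun i => D.apply (F i) x) l (𝓝 (D.apply f x)) := by
  rw [Metric.tendsto_nhds]
  intro ε hε
  set Cst : ℝ := |B| + ‖f‖ + 1 with hC
  have hCpos : 0 < Cst := by positivity
  obtain ⟨R, hR⟩ := (Metric.tendsto_atTop.mp (tendsto_cutoff D x)) (ε / (2 * Cst)) (by positivity)
  have hR' := hR R le_rfl
  rw [dist_eq_norm] at hR'
  have h3 : ∀ᶠ i in l, ‖(F i - f) * cutoff R‖ * (‖x‖ + 1) < ε / 2 := by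
    have h4 := (hloc R).mul_const (‖x‖ + 1)
    rw [zero_mul] at h4
    exact h4.eventually (gt_mem_nhds (by positivity))
  filter_upwards [hB, h3] with i hBi h3i
  rw [dist_eq_norm, ← apply_sub]
  have hsplit : D.apply (F i - f) x
      = D.apply (F i - f) (x - D.apply (cutoff R) x) + D.apply ((F i - f) * cutoff R) x := by
    rw [apply_mul, ← map_add]; congr 1; abel
  rw [hsplit]
  have hn1 : ‖F i - f‖ ≤ Cst := by
    calc ‖F i - f‖ ≤ ‖F i‖ + ‖f‖ := norm_sub_le _ _
      _ ≤ |B| + ‖f‖ := by gcongr; exact hBi.trans (le_abs_self B)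
      _ ≤ Cst := by rw [hC]; linarith
  have hn2 : ‖x - D.apply (cutoff R) x‖ < ε / (2 * Cst) := by rw [norm_sub_rev]; exact hR'
  calc ‖D.apply (F i - f) (x - D.apply (cutoff R) x) + D.apply ((F i - f) * cutoff R) x‖
      ≤ ‖D.apply (F i - f) (x - D.apply (cutoff R) x)‖ + ‖D.apply ((F i - f) * cutoff R) x‖ :=
        norm_add_le _ _
    _ ≤ ‖F i - f‖ * ‖x - D.apply (cutoff R) x‖ + ‖(F i - f) * cutoff R‖ * ‖x‖ :=
        add_le_add (norm_apply_apply_le _ _ _) (norm_apply_apply_le _ _ _)
    _ ≤ Cst * ‖x - D.apply (cutoff R) x‖ + ‖(F i - f) * cutoff R‖ * (‖x‖ + 1) := by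
        gcongr
        linarith
    _ < Cst * (ε / (2 * Cst)) + ε / 2 := by
        have := mul_lt_mul_of_pos_left hn2 hCpos
        linarith
    _ = ε := by field_simp; ring

/-- The unitary group `t ↦ exp(itD)` is strongly continuous. -/
theorem norm_character_sub_mul_cutoff_le (t t₀ R : ℝ) :
    ‖(LineCalculus.character t - LineCalculus.character t₀) * cutoff R‖ ≤ |t - t₀| * (|R| + 1) := by
  rw [BoundedContinuousFunction.norm_le (by positivity)]
  intro u
  rw [BoundedContinuousFunction.mul_apply, BoundedContinuousFunction.sub_apply, norm_mul]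
  by_cases hu : R + 1 ≤ |u|
  · rw [cutoff_eq_zero hu, norm_zero, mul_zero]; positivity
  · push Not at hu
    have h1 : ‖LineCalculus.character t u - LineCalculus.character t₀ u‖ ≤ |t - t₀| * |u| := by
      rw [character_apply, character_apply]
      have e : Complex.exp (Complex.I * ((t * u : ℝ) : ℂ)) - Complex.exp (Complex.I * ((t₀ * u : ℝ) : ℂ))
          = Complex.exp (Complex.I * ((t₀ * u : ℝ) : ℂ))
            * (Complex.exp (Complex.I * (((t - t₀) * u : ℝ) : ℂ)) - 1) := by
        rw [mul_sub, mul_one, ← Complex.exp_add]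
        congr 2
        push_cast
        ring
      rw [e, norm_mul, Complex.norm_exp]
      have hre : (Complex.I * ((t₀ * u : ℝ) : ℂ)).re = 0 := by simp
      rw [hre, Real.exp_zero, one_mul]
      refine (Real.norm_exp_I_mul_ofReal_sub_one_le).trans ?_
      rw [Real.norm_eq_abs, abs_mul]
    calc ‖LineCalculus.character t u - LineCalculus.character t₀ u‖ * ‖cutoff R u‖
        ≤ (|t - t₀| * |u|) * 1 :=
          mul_le_mul h1 (norm_cutoff_apply_le R u) (norm_nonneg _) (by positivity)
      _ ≤ |t - t₀| * (|R| + 1) := by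
          rw [mul_one]
          gcongr
          linarith [le_abs_self R]

theorem continuous_wave (D : LineCalculus H) (x : H) : Continuous fun t : ℝ => D.wave t x := by
  rw [continuous_iff_continuousAt]
  intro t₀
  refine tendsto_apply_of_locally_uniform D (fun t => LineCalculus.character t)
    (LineCalculus.character t₀) 1 (Eventually.of_forall norm_character_le) (fun R => ?_) x
  refine squeeze_zero (fun _ => norm_nonneg _) (fun t => norm_character_sub_mul_cutoff_le t t₀ R) ?_
  have h1 : Tendsto (fun t : ℝ => |t - t₀|) (𝓝 t₀) (𝓝 0) := by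
    have : Continuous fun t : ℝ => |t - t₀| := by fun_prop
    simpa using this.tendsto t₀
  simpa using h1.mul_const (|R| + 1)

/-- Joint continuity: `t ↦ exp(itD) (v t)` is continuous when `v` is. -/
theorem continuous_wave_comp (D : LineCalculus H) {v : ℝ → H} (hv : Continuous v) :
    Continuous fun t : ℝ => D.wave t (v t) := by
  rw [continuous_iff_continuousAt]
  intro t₀
  rw [ContinuousAt, Metric.tendsto_nhds]
  intro ε hε
  have h1 : ∀ᶠ t in 𝓝 t₀, dist (v t) (v t₀) < ε / 2 :=
    (Metric.tendsto_nhds.mp (hv.tendsto t₀)) _ (half_pos hε)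
  have h2 : ∀ᶠ t in 𝓝 t₀, dist (D.wave t (v t₀)) (D.wave t₀ (v t₀)) < ε / 2 :=
    (Metric.tendsto_nhds.mp ((continuous_wave D (v t₀)).tendsto t₀)) _ (half_pos hε)
  filter_upwards [h1, h2] with t ht1 ht2
  calc dist (D.wave t (v t)) (D.wave t₀ (v t₀))
      ≤ dist (D.wave t (v t)) (D.wave t (v t₀)) + dist (D.wave t (v t₀)) (D.wave t₀ (v t₀)) :=
        dist_triangle _ _ _
    _ < ε / 2 + ε / 2 := by
        refine add_lt_add_of_le_of_lt ?_ ht2
        rw [dist_eq_norm, ← map_sub, norm_wave, ← dist_eq_norm]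
        exact ht1.le
    _ = ε := by ring

/-! ### Spectral subspaces -/

theorem supportedIn_mono (D : LineCalculus H) {K K' : Set ℝ} (h : K ⊆ K') {x : H}
    (hx : D.SupportedIn K x) : D.SupportedIn K' x :=
  fun f hf => hx f (fun u hu => hf u (h hu))

theorem supportedIn_zero (D : LineCalculus H) (K : Set ℝ) : D.SupportedIn K (0 : H) :=
  fun _ _ => map_zero _

theorem supportedIn_add (D : LineCalculus H) {K : Set ℝ} {x y : H}
    (hx : D.SupportedIn K x) (hy : D.SupportedIn K y) : D.SupportedIn K (x + y) :=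
  fun f hf => by rw [map_add, hx f hf, hy f hf, add_zero]

theorem supportedIn_smul (D : LineCalculus H) {K : Set ℝ} {x : H} (c : ℂ)
    (hx : D.SupportedIn K x) : D.SupportedIn K (c • x) :=
  fun f hf => by rw [map_smul, hx f hf, smul_zero]

theorem supportedIn_apply (D : LineCalculus H) {K : Set ℝ} {x : H}
    (hx : D.SupportedIn K x) (g : ℝ →ᵇ ℂ) : D.SupportedIn K (D.apply g x) :=
  fun f hf => by rw [apply_comm, hx f hf, map_zero]

theorem supportedIn_wave (D : LineCalculus H) {K : Set ℝ} {x : H}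
    (hx : D.SupportedIn K x) (t : ℝ) : D.SupportedIn K (D.wave t x) :=
  supportedIn_apply D hx _

/-- If `g` vanishes off `K` then `g(D) x` lies in the spectral subspace of `K`. -/
theorem supportedIn_apply_of_zero_off (D : LineCalculus H) {K : Set ℝ} {g : ℝ →ᵇ ℂ}
    (hg : ∀ u, u ∉ K → g u = 0) (x : H) : D.SupportedIn K (D.apply g x) := by
  intro f hf
  rw [← apply_mul]
  have : f * g = 0 := by
    ext u
    by_cases hu : u ∈ K
    · simp [hf u hu]
    · simp [hg u hu]
  rw [this, apply_zero]

/-- On the spectral subspace of `K`, `f(D)` only depends on `f` restricted to `K`. -/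
theorem supportedIn_apply_congr (D : LineCalculus H) {K : Set ℝ} {x : H}
    (hx : D.SupportedIn K x) {f g : ℝ →ᵇ ℂ} (h : ∀ u ∈ K, f u = g u) :
    D.apply f x = D.apply g x := by
  have := hx (f - g) (fun u hu => by simp [h u hu])
  rw [apply_sub] at this
  exact sub_eq_zero.mp this

theorem supportedIn_apply_eq_self (D : LineCalculus H) {K : Set ℝ} {x : H}
    (hx : D.SupportedIn K x) {f : ℝ →ᵇ ℂ} (h : ∀ u ∈ K, f u = 1) : D.apply f x = x := by
  rw [supportedIn_apply_congr D hx (g := 1) (fun u hu => by simp [h u hu]), apply_one]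

end Crest.Agent.S0112
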