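import Crest.Statements.S0112

/-!
# S0112 helper library, part 2: the ultrafilter mean `Crest.OpAlg.ultraMean`

`ultraMean ω f = limUnder ω (windowMean f)` with `windowMean f k = ⨍ t in Icc (-k) k, f t`.
On bounded continuous functions it is a positive, normalised, translation invariant linear
functional (for a free ultrafilter `ω`).
-/

set_option autoImplicit false
open Filter Topology MeasureTheory Crest.OpAlg

namespace Crest.Agent.S0112

/-- Bounded continuous real functions on the line (the functions we average). -/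
def BC (f : ℝ → ℝ) : Prop := Continuous f ∧ ∃ B : ℝ, ∀ t, |f t| ≤ B

theorem BC.add {f g : ℝ → ℝ} (hf : BC f) (hg : BC g) : BC (fun t => f t + g t) := by
  obtain ⟨hfc, Bf, hBf⟩ := hf
  obtain ⟨hgc, Bg, hBg⟩ := hg
  exact ⟨hfc.add hgc, Bf + Bg, fun t => (abs_add_le _ _).trans (add_le_add (hBf t) (hBg t))⟩

theorem BC.const_mul {f : ℝ → ℝ} (c : ℝ) (hf : BC f) : BC (fun t => c * f t) := by
  obtain ⟨hfc, Bf, hBf⟩ := hf
  refine ⟨continuous_const.mul hfc, |c| * Bf, fun t => ?_⟩
  rw [abs_mul]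
  exact mul_le_mul_of_nonneg_left (hBf t) (abs_nonneg c)

theorem BC.neg {f : ℝ → ℝ} (hf : BC f) : BC (fun t => - f t) := by
  simpa using hf.const_mul (-1)

theorem BC.sub {f g : ℝ → ℝ} (hf : BC f) (hg : BC g) : BC (fun t => f t - g t) := by
  simpa [sub_eq_add_neg] using hf.add hg.neg

theorem BC.const (c : ℝ) : BC (fun _ => c) := ⟨continuous_const, |c|, fun _ => le_rfl⟩

theorem BC.comp_add_const {f : ℝ → ℝ} (hf : BC f) (u : ℝ) : BC (fun t => f (t + u)) := by
  obtain ⟨hfc, Bf, hBf⟩ := hf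
  exact ⟨hfc.comp (continuous_id.add continuous_const), Bf, fun t => hBf _⟩

theorem BC.comp_neg {f : ℝ → ℝ} (hf : BC f) : BC (fun t => f (-t)) := by
  obtain ⟨hfc, Bf, hBf⟩ := hf
  exact ⟨hfc.comp continuous_neg, Bf, fun t => hBf _⟩

namespace MeanAux

/-- The window mean as a normalised interval integral. -/
theorem windowMean_eq (f : ℝ → ℝ) (k : ℕ) :
    windowMean f k = (2 * (k : ℝ))⁻¹ * ∫ t in (-(k : ℝ))..(k : ℝ), f t := by
  have hk : -(k : ℝ) ≤ (k : ℝ) := by
    have := Nat.cast_nonneg (α := ℝ) k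
    linarith
  unfold windowMean
  rw [MeasureTheory.setAverage_eq, intervalIntegral.integral_of_le hk,
    MeasureTheory.integral_Icc_eq_integral_Ioc, Real.volume_real_Icc_of_le hk, smul_eq_mul]
  congr 2
  ring

theorem abs_windowMean_le {f : ℝ → ℝ} {B : ℝ} (hB : ∀ t, |f t| ≤ B) (k : ℕ) :
    |windowMean f k| ≤ B := by
  have hB0 : 0 ≤ B := (abs_nonneg (f 0)).trans (hB 0)
  have hk0 : (0 : ℝ) ≤ (k : ℝ) := Nat.cast_nonneg k
  rw [windowMean_eq, abs_mul]
  have h1 : |∫ t in (-(k : ℝ))..(k : ℝ), f t| ≤ B * |(k : ℝ) - -(k : ℝ)| := by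
    have := intervalIntegral.norm_integral_le_of_norm_le_const (a := -(k : ℝ)) (b := (k : ℝ))
      (C := B) (f := f) (fun x _ => by simpa [Real.norm_eq_abs] using hB x)
    simpa [Real.norm_eq_abs] using this
  have h2 : |(k : ℝ) - -(k : ℝ)| = 2 * (k : ℝ) := by
    rw [abs_of_nonneg (by linarith)]
    ring
  rw [h2] at h1
  rcases Nat.eq_zero_or_pos k with hk | hk
  · subst hk
    simpa using hB0
  · have hkpos : (0 : ℝ) < 2 * (k : ℝ) := by
      have : (0 : ℝ) < (k : ℝ) := Nat.cast_pos.mpr hk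
      linarith
    rw [abs_of_pos (inv_pos.mpr hkpos)]
    calc (2 * (k : ℝ))⁻¹ * |∫ t in (-(k : ℝ))..(k : ℝ), f t|
        ≤ (2 * (k : ℝ))⁻¹ * (B * (2 * (k : ℝ))) :=
          mul_le_mul_of_nonneg_left h1 (inv_pos.mpr hkpos).le
      _ = B := by
          field_simp

theorem windowMean_add {f g : ℝ → ℝ} (hf : Continuous f) (hg : Continuous g) (k : ℕ) :
    windowMean (fun t => f t + g t) k = windowMean f k + windowMean g k := by
  rw [windowMean_eq, windowMean_eq, windowMean_eq,
    intervalIntegral.integral_add (hf.intervalIntegrable _ _) (hg.intervalIntegrable _ _)]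
  ring

theorem windowMean_const_mul (c : ℝ) (f : ℝ → ℝ) (k : ℕ) :
    windowMean (fun t => c * f t) k = c * windowMean f k := by
  rw [windowMean_eq, windowMean_eq, intervalIntegral.integral_const_mul]
  ring

theorem windowMean_const (c : ℝ) {k : ℕ} (hk : 0 < k) : windowMean (fun _ => c) k = c := by
  have hkpos : (0 : ℝ) < (k : ℝ) := Nat.cast_pos.mpr hk
  rw [windowMean_eq, intervalIntegral.integral_const, smul_eq_mul]
  field_simp
  ring

theorem windowMean_mono {f g : ℝ → ℝ} (hf : Continuous f) (hg : Continuous g)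
    (h : ∀ t, f t ≤ g t) (k : ℕ) : windowMean f k ≤ windowMean g k := by
  have hk0 : (0 : ℝ) ≤ (k : ℝ) := Nat.cast_nonneg k
  rw [windowMean_eq, windowMean_eq]
  refine mul_le_mul_of_nonneg_left ?_ (inv_nonneg.mpr (by linarith))
  exact intervalIntegral.integral_mono_on (by linarith) (hf.intervalIntegrable _ _)
    (hg.intervalIntegrable _ _) (fun x _ => h x)

theorem windowMean_comp_neg (f : ℝ → ℝ) (k : ℕ) :
    windowMean (fun t => f (-t)) k = windowMean f k := by
  rw [windowMean_eq, windowMean_eq, intervalIntegral.integral_comp_neg, neg_neg]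

theorem abs_windowMean_shift_sub_le {f : ℝ → ℝ} (hf : Continuous f) {B : ℝ}
    (hB : ∀ t, |f t| ≤ B) (u : ℝ) {k : ℕ} (hk : 0 < k) :
    |windowMean (fun t => f (t + u)) k - windowMean f k| ≤ B * |u| / (k : ℝ) := by
  have hkpos : (0 : ℝ) < (k : ℝ) := Nat.cast_pos.mpr hk
  have hint : ∀ a b : ℝ, IntervalIntegrable f volume a b := fun a b => hf.intervalIntegrable a b
  have hbd : ∀ a b : ℝ, |∫ t in a..b, f t| ≤ B * |b - a| := by
    intro a b
    have := intervalIntegral.norm_integral_le_of_norm_le_const (a := a) (b := b)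
      (C := B) (f := f) (fun x _ => by simpa [Real.norm_eq_abs] using hB x)
    simpa [Real.norm_eq_abs] using this
  rw [windowMean_eq, windowMean_eq, intervalIntegral.integral_comp_add_right, ← mul_sub,
    intervalIntegral.integral_interval_sub_interval_comm (hint _ _) (hint _ _) (hint _ _),
    abs_mul, abs_of_pos (inv_pos.mpr (by linarith : (0 : ℝ) < 2 * (k : ℝ)))]
  have h1 := hbd (-(k : ℝ) + u) (-(k : ℝ))
  have h2 := hbd ((k : ℝ) + u) (k : ℝ)
  have e1 : |-(k : ℝ) - (-(k : ℝ) + u)| = |u| := by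
    rw [show -(k : ℝ) - (-(k : ℝ) + u) = -u by ring, abs_neg]
  have e2 : |(k : ℝ) - ((k : ℝ) + u)| = |u| := by
    rw [show (k : ℝ) - ((k : ℝ) + u) = -u by ring, abs_neg]
  rw [e1] at h1
  rw [e2] at h2
  have h3 : |(∫ t in (-(k : ℝ) + u)..(-(k : ℝ)), f t) - ∫ t in ((k : ℝ) + u)..(k : ℝ), f t|
      ≤ 2 * (B * |u|) := by
    calc _ ≤ |∫ t in (-(k : ℝ) + u)..(-(k : ℝ)), f t| + |∫ t in ((k : ℝ) + u)..(k : ℝ), f t| :=
          abs_sub _ _
      _ ≤ 2 * (B * |u|) := by linarith
  calc (2 * (k : ℝ))⁻¹ *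
        |(∫ t in (-(k : ℝ) + u)..(-(k : ℝ)), f t) - ∫ t in ((k : ℝ) + u)..(k : ℝ), f t|
      ≤ (2 * (k : ℝ))⁻¹ * (2 * (B * |u|)) :=
        mul_le_mul_of_nonneg_left h3 (inv_pos.mpr (by linarith)).le
    _ = B * |u| / (k : ℝ) := by
        field_simp

end MeanAux

open MeanAux

/-- For a bounded continuous function the window averages converge along the ultrafilter, to
`ultraMean ω f`. -/
theorem tendsto_windowMean (ω : Ultrafilter ℕ) {f : ℝ → ℝ} (hf : BC f) :
    Tendsto (windowMean f) (ω : Filter ℕ) (𝓝 (ultraMean ω f)) := by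
  obtain ⟨-, B, hB⟩ := hf
  have hsub : ((ω.map (windowMean f) : Ultrafilter ℝ) : Filter ℝ) ≤ 𝓟 (Set.Icc (-B) B) := by
    rw [Ultrafilter.coe_map, le_principal_iff, mem_map]
    exact Filter.Eventually.of_forall fun k => abs_le.mp (abs_windowMean_le hB k)
  obtain ⟨x, -, hx⟩ := isCompact_Icc.ultrafilter_le_nhds (ω.map (windowMean f)) hsub
  have hx' : Tendsto (windowMean f) (ω : Filter ℕ) (𝓝 x) := by
    simpa [Tendsto, Ultrafilter.coe_map] using hx
  have : ultraMean ω f = x := hx'.limUnder_eq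
  rw [this]
  exact hx'

theorem ultraMean_add (ω : Ultrafilter ℕ) {f g : ℝ → ℝ} (hf : BC f) (hg : BC g) :
    ultraMean ω (fun t => f t + g t) = ultraMean ω f + ultraMean ω g := by
  have h := (tendsto_windowMean ω hf).add (tendsto_windowMean ω hg)
  have e : (fun k => windowMean f k + windowMean g k) = windowMean (fun t => f t + g t) := by
    funext k
    exact (windowMean_add hf.1 hg.1 k).symm
  rw [e] at h
  exact h.limUnder_eq

theorem ultraMean_const_mul (ω : Ultrafilter ℕ) (c : ℝ) {f : ℝ → ℝ} (hf : BC f) :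
    ultraMean ω (fun t => c * f t) = c * ultraMean ω f := by
  have h := (tendsto_windowMean ω hf).const_mul c
  have e : (fun k => c * windowMean f k) = windowMean (fun t => c * f t) := by
    funext k
    exact (windowMean_const_mul c f k).symm
  rw [e] at h
  exact h.limUnder_eq

theorem ultraMean_sub (ω : Ultrafilter ℕ) {f g : ℝ → ℝ} (hf : BC f) (hg : BC g) :
    ultraMean ω (fun t => f t - g t) = ultraMean ω f - ultraMean ω g := by
  have h1 := ultraMean_add ω hf (hg.const_mul (-1))
  have h2 := ultraMean_const_mul ω (-1) hg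
  have e : (fun t => f t - g t) = (fun t => f t + -1 * g t) := by
    funext t
    ring
  rw [e, h1, h2]
  ring

theorem ultraMean_const (ω : Ultrafilter ℕ) (hω : (ω : Filter ℕ) ≤ atTop) (c : ℝ) :
    ultraMean ω (fun _ => c) = c := by
  have h : Tendsto (windowMean (fun _ => c)) (ω : Filter ℕ) (𝓝 c) := by
    refine Tendsto.congr' ?_ tendsto_const_nhds
    have : ∀ᶠ k : ℕ in atTop, c = windowMean (fun _ => c) k := by
      filter_upwards [eventually_gt_atTop 0] with k hk
      exact (windowMean_const c hk).symm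
    exact hω this
  exact h.limUnder_eq

theorem ultraMean_mono (ω : Ultrafilter ℕ) {f g : ℝ → ℝ} (hf : BC f) (hg : BC g)
    (h : ∀ t, f t ≤ g t) : ultraMean ω f ≤ ultraMean ω g :=
  le_of_tendsto_of_tendsto' (tendsto_windowMean ω hf) (tendsto_windowMean ω hg)
    (fun k => windowMean_mono hf.1 hg.1 h k)

/-- Translation invariance (this is where freeness of `ω` is used). -/
theorem ultraMean_shift (ω : Ultrafilter ℕ) (hω : (ω : Filter ℕ) ≤ atTop) {f : ℝ → ℝ}
    (hf : BC f) (u : ℝ) : ultraMean ω (fun t => f (t + u)) = ultraMean ω f := by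
  have h1 := tendsto_windowMean ω (hf.comp_add_const u)
  have h2 := tendsto_windowMean ω hf
  obtain ⟨hfc, B, hB⟩ := hf
  have h0 : Tendsto (fun k : ℕ => windowMean (fun t => f (t + u)) k - windowMean f k)
      (ω : Filter ℕ) (𝓝 0) := by
    have hlim : Tendsto (fun k : ℕ => B * |u| / (k : ℝ)) atTop (𝓝 0) :=
      tendsto_const_nhds.div_atTop tendsto_natCast_atTop_atTop
    have hat : Tendsto (fun k : ℕ => windowMean (fun t => f (t + u)) k - windowMean f k)
        atTop (𝓝 0) := by
      refine squeeze_zero_norm' ?_ hlim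
      filter_upwards [eventually_gt_atTop 0] with k hk
      rw [Real.norm_eq_abs]
      exact abs_windowMean_shift_sub_le hfc hB u hk
    exact hat.mono_left hω
  have h3 := tendsto_nhds_unique (h1.sub h2) h0
  linarith

/-- Reflection invariance. -/
theorem ultraMean_comp_neg (ω : Ultrafilter ℕ) {f : ℝ → ℝ} (hf : BC f) :
    ultraMean ω (fun t => f (-t)) = ultraMean ω f := by
  have e : windowMean (fun t => f (-t)) = windowMean f := by
    funext k
    exact windowMean_comp_neg f k
  unfold ultraMean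
  rw [e]

/-- A function exceeds any number below its mean somewhere. -/
theorem exists_lt_of_lt_ultraMean (ω : Ultrafilter ℕ) (hω : (ω : Filter ℕ) ≤ atTop) {f : ℝ → ℝ}
    (hf : BC f) {m : ℝ} (hm : m < ultraMean ω f) : ∃ t, m < f t := by
  by_contra hcon
  have hcon' : ∀ t, f t ≤ m := fun t => not_lt.mp (fun h => hcon ⟨t, h⟩)
  have h1 := ultraMean_mono ω hf (BC.const m) hcon'
  rw [ultraMean_const ω hω m] at h1
  linarith

end Crest.Agent.S0112
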