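import Crest.Agent.S0112.Calc
import Crest.Agent.S0112.Mean
import Crest.Agent.S0112.Tomita

/-!
# S0112 helper library, part 4: the ergodic theorem for the modular flow

If the state is ergodic then the `ω`-mean over `t` of `σ_t(a)` (in the weak sense) is the scalar
`⟨ξ, aξ⟩`.

Proof (helper44): the real form `φ x' x = mean_t Re⟪x', σ_t(a) x⟫` is bounded, real-bilinear and
compatible with `I`, hence `φ x' x = Re⟪x', A x⟫` for a bounded operator `A` (Riesz); `A` commutes
with the commutant of `M` (so `A ∈ M`), is flow invariant (translation invariance of the mean), so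
`A = c • 1` by ergodicity, and `c = ⟪ξ, aξ⟫` because the vacuum is fixed by the modular group.
-/

set_option autoImplicit false
open Filter Topology Crest.OpAlg
open scoped BoundedContinuousFunction InnerProductSpace

namespace Crest.Agent.S0112

variable {H : Type*} [NormedAddCommGroup H] [InnerProductSpace ℂ H] [CompleteSpace H]

set_option linter.unusedSectionVars false

namespace ErgodicAux

/-- Two vectors with the same real pairing against everything are equal. -/
theorem eq_of_forall_re_inner {y z : H}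
    (h : ∀ x' : H, (⟪x', y⟫_ℂ).re = (⟪x', z⟫_ℂ).re) : y = z := by
  have h1 := h (y - z)
  have h3 : (⟪y - z, y - z⟫_ℂ).re = 0 := by
    rw [inner_sub_right, Complex.sub_re, h1, sub_self]
  have h4 : ‖y - z‖ ^ 2 = (⟪y - z, y - z⟫_ℂ).re := by
    have := inner_self_eq_norm_sq_to_K (𝕜 := ℂ) (y - z)
    rw [this]
    norm_cast
  have h2 : ‖y - z‖ ^ 2 = 0 := by rw [h4, h3]
  exact sub_eq_zero.mp (norm_eq_zero.mp (pow_eq_zero_iff two_ne_zero |>.mp h2))

theorem re_inner_I_smul_left (x y : H) :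
    (⟪Complex.I • x, y⟫_ℂ).re = (⟪x, y⟫_ℂ).im := by
  rw [inner_smul_left]
  simp

theorem re_inner_I_smul_right (x y : H) :
    (⟪x, Complex.I • y⟫_ℂ).re = - (⟪x, y⟫_ℂ).im := by
  rw [inner_smul_right]
  simp

theorem re_inner_real_smul_left (r : ℝ) (x y : H) :
    (⟪(r : ℂ) • x, y⟫_ℂ).re = r * (⟪x, y⟫_ℂ).re := by
  rw [inner_smul_left]
  simp

theorem re_inner_real_smul_right (r : ℝ) (x y : H) :
    (⟪x, (r : ℂ) • y⟫_ℂ).re = r * (⟪x, y⟫_ℂ).re := by
  rw [inner_smul_right]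
  simp

/-- A bounded real form which is real-bilinear and compatible with `I` is the real part of the
matrix coefficients of a bounded operator. -/
theorem exists_clm_of_re_form (φ : H → H → ℝ) (C : ℝ)
    (hadd_left : ∀ x' y' x, φ (x' + y') x = φ x' x + φ y' x)
    (hsmul_left : ∀ (r : ℝ) x' x, φ ((r : ℂ) • x') x = r * φ x' x)
    (hadd_right : ∀ x' x y, φ x' (x + y) = φ x' x + φ x' y)
    (hsmul_right : ∀ (r : ℝ) x' x, φ x' ((r : ℂ) • x) = r * φ x' x)
    (hI : ∀ x' x, φ x' (Complex.I • x) = - φ (Complex.I • x') x)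
    (hbound : ∀ x' x, |φ x' x| ≤ C * ‖x'‖ * ‖x‖) :
    ∃ A : H →L[ℂ] H, ∀ x' x, (⟪x', A x⟫_ℂ).re = φ x' x := by
  classical
  -- the real functional `x' ↦ φ x' x`
  let frl : H → (H →ₗ[ℝ] ℝ) := fun x =>
    { toFun := fun x' => φ x' x
      map_add' := fun x' y' => hadd_left x' y' x
      map_smul' := fun r x' => by
        have : r • x' = (r : ℂ) • x' := (Complex.coe_smul r x').symm
        simp only [this, hsmul_left, RingHom.id_apply, smul_eq_mul] }
  let fr : H → StrongDual ℝ H := fun x =>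
    (frl x).mkContinuous (C * ‖x‖) (fun x' => by
      have := hbound x' x
      show ‖φ x' x‖ ≤ C * ‖x‖ * ‖x'‖
      rw [Real.norm_eq_abs]
      linarith [this, mul_comm (C * ‖x‖) ‖x'‖, mul_assoc C ‖x'‖ ‖x‖, mul_assoc C ‖x‖ ‖x'‖,
        mul_comm ‖x‖ ‖x'‖])
  let A0 : H → H := fun x => (InnerProductSpace.toDual ℂ H).symm ((fr x).extendRCLike (𝕜 := ℂ))
  have hA0 : ∀ x' x, (⟪x', A0 x⟫_ℂ).re = φ x' x := by
    intro x' x
    have h1 : ⟪A0 x, x'⟫_ℂ = (fr x).extendRCLike (𝕜 := ℂ) x' :=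
      InnerProductSpace.toDual_symm_apply
    have h2 : (⟪x', A0 x⟫_ℂ).re = (⟪A0 x, x'⟫_ℂ).re := by
      rw [← inner_conj_symm, Complex.conj_re]
    rw [h2, h1]
    have h3 : ((fr x).extendRCLike (𝕜 := ℂ) x').re = fr x x' :=
      StrongDual.re_extendRCLike_apply (𝕜 := ℂ) (fr x) x'
    exact h3
  have hadd : ∀ x y, A0 (x + y) = A0 x + A0 y := by
    intro x y
    apply eq_of_forall_re_inner
    intro x'
    rw [inner_add_right, Complex.add_re, hA0, hA0, hA0, hadd_right]
  have hsmul : ∀ (c : ℂ) x, A0 (c • x) = c • A0 x := by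
    intro c x
    apply eq_of_forall_re_inner
    intro x'
    rw [hA0, inner_smul_right, Complex.mul_re, hA0, ← re_inner_I_smul_left, hA0]
    have hc : c • x = (c.re : ℂ) • x + (c.im : ℂ) • (Complex.I • x) := by
      rw [smul_smul, ← add_smul, Complex.re_add_im]
    rw [hc, hadd_right, hsmul_right, hsmul_right, hI]
    ring
  let Al : H →ₗ[ℂ] H :=
    { toFun := A0
      map_add' := hadd
      map_smul' := fun c x => by simpa using hsmul c x }
  refine ⟨Al.mkContinuous |C| (fun x => ?_), fun x' x => hA0 x' x⟩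
  show ‖A0 x‖ ≤ |C| * ‖x‖
  by_cases h0 : ‖A0 x‖ = 0
  · rw [h0]; positivity
  · have hpos : 0 < ‖A0 x‖ := lt_of_le_of_ne (norm_nonneg _) (Ne.symm h0)
    have h4 : ‖A0 x‖ ^ 2 = (⟪A0 x, A0 x⟫_ℂ).re := by
      have := inner_self_eq_norm_sq_to_K (𝕜 := ℂ) (A0 x)
      rw [this]
      norm_cast
    have h5 : ‖A0 x‖ ^ 2 ≤ |C| * ‖A0 x‖ * ‖x‖ := by
      rw [h4, hA0]
      calc φ (A0 x) x ≤ |φ (A0 x) x| := le_abs_self _
        _ ≤ C * ‖A0 x‖ * ‖x‖ := hbound _ _
        _ ≤ |C| * ‖A0 x‖ * ‖x‖ := by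
            gcongr
            exact le_abs_self C
    have h6 : ‖A0 x‖ * ‖A0 x‖ ≤ ‖A0 x‖ * (|C| * ‖x‖) := by
      calc ‖A0 x‖ * ‖A0 x‖ = ‖A0 x‖ ^ 2 := by ring
        _ ≤ |C| * ‖A0 x‖ * ‖x‖ := h5
        _ = ‖A0 x‖ * (|C| * ‖x‖) := by ring
    exact le_of_mul_le_mul_left h6 hpos

end ErgodicAux

theorem flow_apply (S : ModularDatum H) (t : ℝ) (a : H →L[ℂ] H) (x : H) :
    S.flow t a x = S.D.wave t (a (S.D.wave (-t) x)) := rfl

theorem flow_apply_vac (S : ModularDatum H) (t : ℝ) (a : H →L[ℂ] H) :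
    S.flow t a S.vac = S.D.wave t (a S.vac) := by
  rw [flow_apply, wave_vac]

theorem flow_star (S : ModularDatum H) (t : ℝ) (a : H →L[ℂ] H) :
    star (S.flow t a) = S.flow t (star a) := by
  have hw : ∀ r : ℝ, star (S.D.wave r) = S.D.wave (-r) := fun r => by
    rw [ContinuousLinearMap.star_eq_adjoint, adjoint_wave]
  unfold ModularDatum.flow
  rw [star_mul, star_mul, hw, hw, neg_neg, mul_assoc]

theorem flow_mul (S : ModularDatum H) (t : ℝ) (a b : H →L[ℂ] H) :
    S.flow t (a * b) = S.flow t a * S.flow t b := by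
  ext x
  simp only [flow_apply, mul_apply_eq_comp, wave_neg_wave]

namespace ErgodicAux

theorem norm_flow_apply_le (S : ModularDatum H) (t : ℝ) (a : H →L[ℂ] H) (x : H) :
    ‖S.flow t a x‖ ≤ ‖a‖ * ‖x‖ := by
  rw [flow_apply, norm_wave]
  calc ‖a (S.D.wave (-t) x)‖ ≤ ‖a‖ * ‖S.D.wave (-t) x‖ := a.le_opNorm _
    _ = ‖a‖ * ‖x‖ := by rw [norm_wave]

theorem abs_re_inner_flow_le (S : ModularDatum H) (t : ℝ) (a : H →L[ℂ] H) (x x' : H) :
    |(⟪x', S.flow t a x⟫_ℂ).re| ≤ ‖a‖ * ‖x'‖ * ‖x‖ := by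
  calc |(⟪x', S.flow t a x⟫_ℂ).re| ≤ ‖⟪x', S.flow t a x⟫_ℂ‖ := Complex.abs_re_le_norm _
    _ ≤ ‖x'‖ * ‖S.flow t a x‖ := norm_inner_le_norm _ _
    _ ≤ ‖x'‖ * (‖a‖ * ‖x‖) := by
        gcongr
        exact norm_flow_apply_le S t a x
    _ = ‖a‖ * ‖x'‖ * ‖x‖ := by ring

theorem continuous_flow_apply (S : ModularDatum H) (a : H →L[ℂ] H) (x : H) :
    Continuous fun t : ℝ => S.flow t a x := by
  have h1 : Continuous fun t : ℝ => S.D.wave (-t) x :=
    (continuous_wave S.D x).comp continuous_neg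
  have h2 : Continuous fun t : ℝ => a (S.D.wave (-t) x) := a.continuous.comp h1
  exact continuous_wave_comp S.D h2

end ErgodicAux

/-- The matrix coefficients of the flow are bounded continuous functions of `t`. -/
theorem bc_inner_flow (S : ModularDatum H) (a : H →L[ℂ] H) (x x' : H) :
    BC (fun t : ℝ => (⟪x', S.flow t a x⟫_ℂ).re) := by
  refine ⟨?_, ‖a‖ * ‖x'‖ * ‖x‖, fun t => ErgodicAux.abs_re_inner_flow_le S t a x x'⟩
  have h := ErgodicAux.continuous_flow_apply S a x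
  exact Complex.continuous_re.comp (continuous_const.inner h)

theorem bc_inner_flow_neg (S : ModularDatum H) (a : H →L[ℂ] H) (x x' : H) :
    BC (fun t : ℝ => (⟪x', S.flow (-t) a x⟫_ℂ).re) :=
  (bc_inner_flow S a x x').comp_neg

namespace ErgodicAux

theorem abs_ultraMean_le (ω : Ultrafilter ℕ) (hω : (ω : Filter ℕ) ≤ atTop) {f : ℝ → ℝ}
    (hf : BC f) {B : ℝ} (hB : ∀ t, |f t| ≤ B) : |ultraMean ω f| ≤ B := by
  rw [abs_le]
  constructor
  · have h := ultraMean_mono ω (BC.const (-B)) hf (fun t => (abs_le.mp (hB t)).1)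
    rwa [ultraMean_const ω hω] at h
  · have h := ultraMean_mono ω hf (BC.const B) (fun t => (abs_le.mp (hB t)).2)
    rwa [ultraMean_const ω hω] at h

theorem ultraMean_neg (ω : Ultrafilter ℕ) {f : ℝ → ℝ} (hf : BC f) :
    ultraMean ω (fun t => - f t) = - ultraMean ω f := by
  have h := ultraMean_const_mul ω (-1) hf
  simpa using h

end ErgodicAux

/-- Ergodic theorem: the mean of `σ_t(a)` is the scalar `⟨ξ, aξ⟩`, weakly. -/
theorem ergodic_mean (S : ModularDatum H) (herg : S.Ergodic) (ω : Ultrafilter ℕ)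
    (hω : (ω : Filter ℕ) ≤ atTop) {a : H →L[ℂ] H} (ha : a ∈ S.M) (x x' : H) :
    ultraMean ω (fun t : ℝ => (⟪x', S.flow t a x⟫_ℂ).re)
      = (⟪S.vac, a S.vac⟫_ℂ * ⟪x', x⟫_ℂ).re := by
  -- the real form
  let φ : H → H → ℝ := fun x' x => ultraMean ω (fun t : ℝ => (⟪x', S.flow t a x⟫_ℂ).re)
  have hφ : ∀ x' x, φ x' x = ultraMean ω (fun t : ℝ => (⟪x', S.flow t a x⟫_ℂ).re) :=
    fun _ _ => rfl
  have hadd_left : ∀ x' y' x, φ (x' + y') x = φ x' x + φ y' x := by
    intro x' y' x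
    rw [hφ, hφ, hφ, ← ultraMean_add ω (bc_inner_flow S a x x') (bc_inner_flow S a x y')]
    congr 1
    funext t
    rw [inner_add_left, Complex.add_re]
  have hsmul_left : ∀ (r : ℝ) x' x, φ ((r : ℂ) • x') x = r * φ x' x := by
    intro r x' x
    rw [hφ, hφ, ← ultraMean_const_mul ω r (bc_inner_flow S a x x')]
    congr 1
    funext t
    rw [ErgodicAux.re_inner_real_smul_left]
  have hadd_right : ∀ x' x y, φ x' (x + y) = φ x' x + φ x' y := by
    intro x' x y
    rw [hφ, hφ, hφ, ← ultraMean_add ω (bc_inner_flow S a x x') (bc_inner_flow S a y x')]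
    congr 1
    funext t
    rw [map_add, inner_add_right, Complex.add_re]
  have hsmul_right : ∀ (r : ℝ) x' x, φ x' ((r : ℂ) • x) = r * φ x' x := by
    intro r x' x
    rw [hφ, hφ, ← ultraMean_const_mul ω r (bc_inner_flow S a x x')]
    congr 1
    funext t
    rw [map_smul, ErgodicAux.re_inner_real_smul_right]
  have hI : ∀ x' x, φ x' (Complex.I • x) = - φ (Complex.I • x') x := by
    intro x' x
    rw [hφ, hφ, ← ErgodicAux.ultraMean_neg ω (bc_inner_flow S a x (Complex.I • x'))]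
    congr 1
    funext t
    rw [map_smul, ErgodicAux.re_inner_I_smul_right, ErgodicAux.re_inner_I_smul_left]
  have hbound : ∀ x' x, |φ x' x| ≤ ‖a‖ * ‖x'‖ * ‖x‖ := by
    intro x' x
    exact ErgodicAux.abs_ultraMean_le ω hω (bc_inner_flow S a x x')
      (fun t => ErgodicAux.abs_re_inner_flow_le S t a x x')
  obtain ⟨A, hA⟩ := ErgodicAux.exists_clm_of_re_form φ ‖a‖ hadd_left hsmul_left hadd_right
    hsmul_right hI hbound
  -- `A ∈ M` by the double commutant theorem
  have hAM : A ∈ S.M := by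
    rw [← S.M.commutant_commutant, VonNeumannAlgebra.mem_commutant_iff]
    intro g hg
    rw [VonNeumannAlgebra.mem_commutant_iff] at hg
    ext x
    apply ErgodicAux.eq_of_forall_re_inner
    intro x'
    show (⟪x', g (A x)⟫_ℂ).re = (⟪x', A (g x)⟫_ℂ).re
    rw [← ContinuousLinearMap.adjoint_inner_left, hA, hA, hφ, hφ]
    congr 1
    funext t
    rw [ContinuousLinearMap.adjoint_inner_left]
    have hc := hg (S.flow t a) (S.flow_mem t a ha)
    have hc' : S.flow t a (g x) = g (S.flow t a x) := by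
      have := congrArg (fun T : H →L[ℂ] H => T x) hc
      simpa using this
    rw [hc']
  -- `A` is invariant under the flow
  have hAfix : ∀ s : ℝ, S.flow s A = A := by
    intro s
    ext x
    apply ErgodicAux.eq_of_forall_re_inner
    intro x'
    rw [flow_apply, inner_wave_right, hA, hA, hφ, hφ,
      ← ultraMean_shift ω hω (bc_inner_flow S a x x') s]
    congr 1
    funext t
    rw [flow_apply, flow_apply, inner_wave_left, neg_neg, ← wave_add, ← wave_add,
      add_comm s t, ← neg_add]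
  obtain ⟨c, hc⟩ := herg A hAM hAfix
  have hAc : ∀ x, A x = c • x := fun x => by rw [hc]; simp
  have hvac : ⟪S.vac, S.vac⟫_ℂ = 1 := by
    rw [inner_self_eq_norm_sq_to_K, S.norm_vac]; simp
  -- identify the scalar
  have hre : c.re = (⟪S.vac, a S.vac⟫_ℂ).re := by
    have h1 : φ S.vac S.vac = c.re := by
      rw [← hA, hAc, inner_smul_right, hvac, mul_one]
    have h2 : φ S.vac S.vac = (⟪S.vac, a S.vac⟫_ℂ).re := by
      rw [hφ, ← ultraMean_const ω hω (⟪S.vac, a S.vac⟫_ℂ).re]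
      congr 1
      funext t
      rw [flow_apply_vac, inner_wave_right, wave_vac]
    rw [← h1, h2]
  have him : c.im = (⟪S.vac, a S.vac⟫_ℂ).im := by
    have h1 : φ (Complex.I • S.vac) S.vac = c.im := by
      rw [← hA, hAc, ErgodicAux.re_inner_I_smul_left, inner_smul_right, hvac, mul_one]
    have h2 : φ (Complex.I • S.vac) S.vac = (⟪S.vac, a S.vac⟫_ℂ).im := by
      rw [hφ, ← ErgodicAux.re_inner_I_smul_left,
        ← ultraMean_const ω hω (⟪Complex.I • S.vac, a S.vac⟫_ℂ).re]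
      congr 1
      funext t
      rw [flow_apply_vac, inner_wave_right, map_smul, wave_vac]
    rw [← h1, h2]
  have hcval : c = ⟪S.vac, a S.vac⟫_ℂ := Complex.ext hre him
  show φ x' x = _
  rw [← hA, hAc, inner_smul_right, hcval]

/-- The same for the reversed flow. -/
theorem ergodic_mean_neg (S : ModularDatum H) (herg : S.Ergodic) (ω : Ultrafilter ℕ)
    (hω : (ω : Filter ℕ) ≤ atTop) {a : H →L[ℂ] H} (ha : a ∈ S.M) (x x' : H) :
    ultraMean ω (fun t : ℝ => (⟪x', S.flow (-t) a x⟫_ℂ).re)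
      = (⟪S.vac, a S.vac⟫_ℂ * ⟪x', x⟫_ℂ).re := by
  rw [← ergodic_mean S herg ω hω ha x x']
  exact ultraMean_comp_neg ω (bc_inner_flow S a x x')

end Crest.Agent.S0112
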