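import Crest.Agent.S0112.Step

/-!
# S0112 helper library, part 9: the greedy sum and its normalisation
-/

set_option autoImplicit false
open Filter Topology Crest.OpAlg
open scoped BoundedContinuousFunction InnerProductSpace

namespace Crest.Agent.S0112

variable {H : Type*} [NormedAddCommGroup H] [InnerProductSpace ℂ H] [CompleteSpace H]

theorem supportedIn_sub (D : LineCalculus H) {K : Set ℝ} {x y : H}
    (hx : D.SupportedIn K x) (hy : D.SupportedIn K y) : D.SupportedIn K (x - y) := by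
  have h := supportedIn_add D hx (supportedIn_smul D (-1) hy)
  simpa [sub_eq_add_neg] using h

section Induct

variable (S : ModularDatum H) (herg : S.Ergodic) (ω : Ultrafilter ℕ) (hω : (ω : Filter ℕ) ≤ atTop)

include herg hω in
/-- `k` greedy steps. -/
theorem exists_partial_sum (T : H →L[ℂ] H) {y : H →L[ℂ] H} (hy : y ∈ S.M) {K : Set ℝ}
    (hyK : S.D.SupportedIn K (y S.vac)) (lam A B d : ℝ) (hlam : 0 ≤ lam)
    (hA : ‖y S.vac‖ ^ 2 ≤ A) (hB : ‖star y S.vac‖ ^ 2 ≤ B) (N : ℕ)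
    (hd : d + lam * (‖star y (y S.vac) - ((‖y S.vac‖ ^ 2 : ℝ) : ℂ) • S.vac‖ ^ 2 + 4 * A * B * N)
      < ultraMean ω (fun t : ℝ => ‖T (S.D.wave t (y S.vac))‖ ^ 2)) :
    ∀ k : ℕ, k ≤ N → ∃ Sk ∈ S.M, S.D.SupportedIn K (Sk S.vac) ∧
      k * d ≤ ‖T (Sk S.vac)‖ ^ 2
        - lam * (‖star Sk (Sk S.vac) - ((k * ‖y S.vac‖ ^ 2 : ℝ) : ℂ) • S.vac‖ ^ 2
            + 2 * A * (N - k) * ‖star Sk S.vac‖ ^ 2 + 2 * B * (N - k) * ‖Sk S.vac‖ ^ 2) := by
  intro k
  induction k with
  | zero =>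
    intro _
    refine ⟨0, zero_mem _, ?_, ?_⟩
    · simpa using supportedIn_zero S.D K
    · simp
  | succ k ih =>
    intro hk
    obtain ⟨Sk, hSkM, hSkK, hSk⟩ := ih (Nat.le_of_succ_le hk)
    have hkN : (k : ℝ) + 1 ≤ N := by exact_mod_cast hk
    have hA0 : 0 ≤ A := le_trans (by positivity) hA
    have hB0 : 0 ≤ B := le_trans (by positivity) hB
    set g := ultraMean ω (fun t : ℝ => ‖T (S.D.wave t (y S.vac))‖ ^ 2) with hg
    set Q := ‖star y (y S.vac) - ((‖y S.vac‖ ^ 2 : ℝ) : ℂ) • S.vac‖ ^ 2 with hQ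
    obtain ⟨t, S₁, hS₁, hineq⟩ := one_step S herg ω hω T hy hSkM lam
      (2 * A * (N - (k + 1))) (2 * B * (N - (k + 1))) (k * ‖y S.vac‖ ^ 2)
      (g - d - lam * (Q + 4 * A * B * N)) hlam (by linarith)
    have hfl : S.flow t y ∈ S.M := S.flow_mem t y hy
    have hflK : S.D.SupportedIn K (S.flow t y S.vac) := by
      rw [flow_apply_vac]; exact supportedIn_wave S.D hyK t
    refine ⟨S₁, ?_, ?_, ?_⟩
    · rcases hS₁ with rfl | rfl
      · exact add_mem hSkM hfl
      · exact sub_mem hSkM hfl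
    · rcases hS₁ with rfl | rfl
      · rw [clm_add_apply]; exact supportedIn_add S.D hSkK hflK
      · rw [clm_sub_apply]; exact supportedIn_sub S.D hSkK hflK
    · have hcast : ((k * ‖y S.vac‖ ^ 2 + ‖y S.vac‖ ^ 2 : ℝ) : ℂ)
          = (((k + 1 : ℕ) * ‖y S.vac‖ ^ 2 : ℝ) : ℂ) := by
        push_cast; ring
      rw [hcast] at hineq
      have hr : 0 ≤ ‖star Sk S.vac‖ ^ 2 := by positivity
      have hz : 0 ≤ ‖Sk S.vac‖ ^ 2 := by positivity
      have ha0 : 0 ≤ ‖y S.vac‖ ^ 2 := by positivity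
      have hm0 : 0 ≤ ‖star y S.vac‖ ^ 2 := by positivity
      have h1 : lam * ((2 * A * (N - (k + 1)) + 2 * ‖y S.vac‖ ^ 2) * ‖star Sk S.vac‖ ^ 2)
          ≤ lam * (2 * A * (N - k) * ‖star Sk S.vac‖ ^ 2) := by
        refine mul_le_mul_of_nonneg_left (mul_le_mul_of_nonneg_right ?_ hr) hlam
        nlinarith
      have h2 : lam * ((2 * B * (N - (k + 1)) + 2 * ‖star y S.vac‖ ^ 2) * ‖Sk S.vac‖ ^ 2)
          ≤ lam * (2 * B * (N - k) * ‖Sk S.vac‖ ^ 2) := by
        refine mul_le_mul_of_nonneg_left (mul_le_mul_of_nonneg_right ?_ hz) hlam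
        nlinarith
      have h3 : lam * (2 * A * (N - (k + 1)) * ‖star y S.vac‖ ^ 2
            + 2 * B * (N - (k + 1)) * ‖y S.vac‖ ^ 2) ≤ lam * (4 * A * B * N) := by
        refine mul_le_mul_of_nonneg_left ?_ hlam
        have hNk : (0 : ℝ) ≤ N - (k + 1) := by linarith
        have hNk' : (N : ℝ) - (k + 1) ≤ N := by linarith
        have e1 : 2 * A * (N - (k + 1)) * ‖star y S.vac‖ ^ 2 ≤ 2 * A * N * B := by
          have := mul_le_mul (mul_le_mul_of_nonneg_left hNk' (by positivity : (0:ℝ) ≤ 2 * A)) hB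
            hm0 (by positivity)
          linarith
        have e2 : 2 * B * (N - (k + 1)) * ‖y S.vac‖ ^ 2 ≤ 2 * B * N * A := by
          have := mul_le_mul (mul_le_mul_of_nonneg_left hNk' (by positivity : (0:ℝ) ≤ 2 * B)) hA
            ha0 (by positivity)
          linarith
        nlinarith
      rw [← hg, ← hQ] at hineq
      push_cast at hSk hineq ⊢
      linarith [h1, h2, h3, hSk, hineq]

end Induct

end Crest.Agent.S0112
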