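import Crest.Agent.S0112.Calc
import Crest.Agent.S0112.Mean
import Crest.Agent.S0112.Tomita
import Crest.Agent.S0112.Ergodic

/-!
# S0112 helper library, part 8: one step of the greedy construction
-/

set_option autoImplicit false
open Filter Topology Crest.OpAlg
open scoped BoundedContinuousFunction InnerProductSpace

namespace Crest.Agent.S0112

variable {H : Type*} [NormedAddCommGroup H] [InnerProductSpace ℂ H] [CompleteSpace H]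

set_option linter.unusedSectionVars false

theorem clm_mul_apply (A B : H →L[ℂ] H) (x : H) : (A * B) x = A (B x) := rfl

theorem clm_add_apply (A B : H →L[ℂ] H) (x : H) : (A + B) x = A x + B x := rfl

theorem clm_sub_apply (A B : H →L[ℂ] H) (x : H) : (A - B) x = A x - B x := rfl

theorem inner_star_left (A : H →L[ℂ] H) (x y : H) : ⟪star A x, y⟫_ℂ = ⟪x, A y⟫_ℂ := by
  rw [ContinuousLinearMap.star_eq_adjoint, ContinuousLinearMap.adjoint_inner_left]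

theorem inner_star_right (A : H →L[ℂ] H) (x y : H) : ⟪x, star A y⟫_ℂ = ⟪A x, y⟫_ℂ := by
  rw [ContinuousLinearMap.star_eq_adjoint, ContinuousLinearMap.adjoint_inner_right]

theorem norm_sq_eq_re_inner (x : H) : ‖x‖ ^ 2 = (⟪x, x⟫_ℂ).re := by
  have := inner_self_eq_norm_sq (𝕜 := ℂ) x
  simpa using this.symm

theorem inner_self_eq_ofReal (x : H) : ⟪x, x⟫_ℂ = ((‖x‖ ^ 2 : ℝ) : ℂ) := by
  rw [inner_self_eq_norm_sq_to_K]; norm_cast

/-- Pure parallelogram-law bookkeeping: one of the two signs does at least as well as the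
average. -/
theorem exists_sign_choice (uA vA U q uC vC uE vE : H) (lam α β : ℝ) :
    (‖uA‖ ^ 2 + ‖vA‖ ^ 2 - lam * (‖U‖ ^ 2 + ‖q‖ ^ 2 + α * (‖uC‖ ^ 2 + ‖vC‖ ^ 2)
          + β * (‖uE‖ ^ 2 + ‖vE‖ ^ 2))
        ≤ ‖uA + vA‖ ^ 2 - lam * (‖U + q‖ ^ 2 + α * ‖uC + vC‖ ^ 2 + β * ‖uE + vE‖ ^ 2)) ∨
    (‖uA‖ ^ 2 + ‖vA‖ ^ 2 - lam * (‖U‖ ^ 2 + ‖q‖ ^ 2 + α * (‖uC‖ ^ 2 + ‖vC‖ ^ 2)
          + β * (‖uE‖ ^ 2 + ‖vE‖ ^ 2))
        ≤ ‖uA - vA‖ ^ 2 - lam * (‖U - q‖ ^ 2 + α * ‖uC - vC‖ ^ 2 + β * ‖uE - vE‖ ^ 2)) := by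
  have hp : ∀ a b : H, ‖a + b‖ ^ 2 + ‖a - b‖ ^ 2 = 2 * (‖a‖ ^ 2 + ‖b‖ ^ 2) := by
    intro a b
    have := parallelogram_law_with_norm ℂ a b
    nlinarith [this]
  by_contra hcon
  rw [not_or, not_le, not_le] at hcon
  obtain ⟨h1, h2⟩ := hcon
  have e1 := hp uA vA
  have e2 : lam * ‖U + q‖ ^ 2 + lam * ‖U - q‖ ^ 2 = lam * (2 * (‖U‖ ^ 2 + ‖q‖ ^ 2)) := by
    rw [← mul_add, hp]
  have e3 : lam * (α * ‖uC + vC‖ ^ 2) + lam * (α * ‖uC - vC‖ ^ 2)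
      = lam * (α * (2 * (‖uC‖ ^ 2 + ‖vC‖ ^ 2))) := by
    rw [← mul_add, ← mul_add, hp]
  have e4 : lam * (β * ‖uE + vE‖ ^ 2) + lam * (β * ‖uE - vE‖ ^ 2)
      = lam * (β * (2 * (‖uE‖ ^ 2 + ‖vE‖ ^ 2))) := by
    rw [← mul_add, ← mul_add, hp]
  nlinarith [h1, h2, e1, e2, e3, e4]

section Means

variable (S : ModularDatum H) (herg : S.Ergodic) (ω : Ultrafilter ℕ) (hω : (ω : Filter ℕ) ≤ atTop)

theorem bc_norm_T_wave (T : H →L[ℂ] H) (v : H) :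
    BC (fun t : ℝ => ‖T (S.D.wave t v)‖ ^ 2) := by
  refine ⟨?_, (‖T‖ * ‖v‖) ^ 2, fun t => ?_⟩
  · exact ((T.continuous.comp (continuous_wave S.D v)).norm).pow 2
  · rw [abs_of_nonneg (by positivity)]
    refine pow_le_pow_left₀ (norm_nonneg _) ?_ 2
    calc ‖T (S.D.wave t v)‖ ≤ ‖T‖ * ‖S.D.wave t v‖ := T.le_opNorm _
      _ = ‖T‖ * ‖v‖ := by rw [norm_wave]

/-- `‖S₀⋆ U_t v‖² = Re⟪v, σ_{-t}(S₀ S₀⋆) v⟫`. -/
theorem norm_star_wave_sq (S₀ : H →L[ℂ] H) (v : H) (t : ℝ) :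
    ‖star S₀ (S.D.wave t v)‖ ^ 2 = (⟪v, S.flow (-t) (S₀ * star S₀) v⟫_ℂ).re := by
  rw [norm_sq_eq_re_inner, flow_apply, neg_neg, inner_wave_right, neg_neg,
    clm_mul_apply, inner_star_left]

theorem bc_norm_star_wave (S₀ : H →L[ℂ] H) (v : H) :
    BC (fun t : ℝ => ‖star S₀ (S.D.wave t v)‖ ^ 2) := by
  have h := bc_inner_flow_neg S (S₀ * star S₀) v v
  have e : (fun t : ℝ => ‖star S₀ (S.D.wave t v)‖ ^ 2)
      = fun t : ℝ => (⟪v, S.flow (-t) (S₀ * star S₀) v⟫_ℂ).re := by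
    funext t; exact norm_star_wave_sq S S₀ v t
  rw [e]; exact h

include herg hω in
theorem mean_norm_star_wave {S₀ : H →L[ℂ] H} (hS₀ : S₀ ∈ S.M) (v : H) :
    ultraMean ω (fun t : ℝ => ‖star S₀ (S.D.wave t v)‖ ^ 2) = ‖v‖ ^ 2 * ‖star S₀ S.vac‖ ^ 2 := by
  have e : (fun t : ℝ => ‖star S₀ (S.D.wave t v)‖ ^ 2)
      = fun t : ℝ => (⟪v, S.flow (-t) (S₀ * star S₀) v⟫_ℂ).re := by
    funext t; exact norm_star_wave_sq S S₀ v t
  rw [e, ergodic_mean_neg S herg ω hω (mul_mem hS₀ (star_mem hS₀)) v v,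
    clm_mul_apply, ← inner_star_left, inner_self_eq_ofReal, inner_self_eq_ofReal,
    ← Complex.ofReal_mul, Complex.ofReal_re, mul_comm]

/-- `‖σ_t(y)⋆ w‖² = Re⟪w, σ_t(y y⋆) w⟫`. -/
theorem norm_star_flow_sq (y : H →L[ℂ] H) (w : H) (t : ℝ) :
    ‖star (S.flow t y) w‖ ^ 2 = (⟪w, S.flow t (y * star y) w⟫_ℂ).re := by
  rw [norm_sq_eq_re_inner, flow_mul, clm_mul_apply, ← flow_star, inner_star_left]

theorem bc_norm_star_flow (y : H →L[ℂ] H) (w : H) :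
    BC (fun t : ℝ => ‖star (S.flow t y) w‖ ^ 2) := by
  have h := bc_inner_flow S (y * star y) w w
  have e : (fun t : ℝ => ‖star (S.flow t y) w‖ ^ 2)
      = fun t : ℝ => (⟪w, S.flow t (y * star y) w⟫_ℂ).re := by
    funext t; exact norm_star_flow_sq S y w t
  rw [e]; exact h

include herg hω in
theorem mean_norm_star_flow {y : H →L[ℂ] H} (hy : y ∈ S.M) (w : H) :
    ultraMean ω (fun t : ℝ => ‖star (S.flow t y) w‖ ^ 2) = ‖star y S.vac‖ ^ 2 * ‖w‖ ^ 2 := by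
  have e : (fun t : ℝ => ‖star (S.flow t y) w‖ ^ 2)
      = fun t : ℝ => (⟪w, S.flow t (y * star y) w⟫_ℂ).re := by
    funext t; exact norm_star_flow_sq S y w t
  rw [e, ergodic_mean S herg ω hω (mul_mem hy (star_mem hy)) w w,
    clm_mul_apply, ← inner_star_left, inner_self_eq_ofReal, inner_self_eq_ofReal,
    ← Complex.ofReal_mul, Complex.ofReal_re]

/-- The cross term: `U_t (y⋆y ξ - a₀ ξ) = σ_t(y⋆y) ξ - a₀ ξ`. -/
theorem wave_centered (y : H →L[ℂ] H) (a₀ : ℝ) (t : ℝ) :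
    S.D.wave t (star y (y S.vac) - (a₀ : ℂ) • S.vac)
      = S.flow t (star y * y) S.vac - (a₀ : ℂ) • S.vac := by
  rw [map_sub, map_smul, wave_vac, flow_apply_vac, clm_mul_apply]

theorem bc_cross (y : H →L[ℂ] H) (a₀ : ℝ) (R : H) :
    BC (fun t : ℝ => (⟪R, S.D.wave t (star y (y S.vac) - (a₀ : ℂ) • S.vac)⟫_ℂ).re) := by
  have e : (fun t : ℝ => (⟪R, S.D.wave t (star y (y S.vac) - (a₀ : ℂ) • S.vac)⟫_ℂ).re)
      = fun t : ℝ => (⟪R, S.flow t (star y * y) S.vac⟫_ℂ).re - (⟪R, (a₀ : ℂ) • S.vac⟫_ℂ).re := by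
    funext t
    rw [wave_centered, inner_sub_right, Complex.sub_re]
  rw [e]
  exact (bc_inner_flow S (star y * y) S.vac R).sub (BC.const _)

include herg hω in
theorem mean_cross {y : H →L[ℂ] H} (hy : y ∈ S.M) (R : H) :
    ultraMean ω (fun t : ℝ =>
      (⟪R, S.D.wave t (star y (y S.vac) - ((‖y S.vac‖ ^ 2 : ℝ) : ℂ) • S.vac)⟫_ℂ).re) = 0 := by
  have e : (fun t : ℝ =>
      (⟪R, S.D.wave t (star y (y S.vac) - ((‖y S.vac‖ ^ 2 : ℝ) : ℂ) • S.vac)⟫_ℂ).re)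
      = fun t : ℝ => (⟪R, S.flow t (star y * y) S.vac⟫_ℂ).re
          - (⟪R, ((‖y S.vac‖ ^ 2 : ℝ) : ℂ) • S.vac⟫_ℂ).re := by
    funext t
    rw [wave_centered, inner_sub_right, Complex.sub_re]
  rw [e, ultraMean_sub ω (bc_inner_flow S (star y * y) S.vac R) (BC.const _),
    ultraMean_const ω hω, ergodic_mean S herg ω hω (mul_mem (star_mem hy) hy) S.vac R,
    clm_mul_apply, inner_star_right, inner_self_eq_ofReal, inner_smul_right]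
  ring_nf

end Means

section OneStep

theorem expand_add (S₀ Y : H →L[ℂ] H) (ξ : H) (κ a₀ : ℝ) :
    star (S₀ + Y) ((S₀ + Y) ξ) - ((κ + a₀ : ℝ) : ℂ) • ξ
      = (star S₀ (S₀ ξ) - (κ : ℂ) • ξ + (star Y (Y ξ) - (a₀ : ℂ) • ξ))
        + (star S₀ (Y ξ) + star Y (S₀ ξ)) := by
  simp only [star_add, clm_add_apply, map_add, Complex.ofReal_add, add_smul]
  abel

theorem expand_sub (S₀ Y : H →L[ℂ] H) (ξ : H) (κ a₀ : ℝ) :
    star (S₀ - Y) ((S₀ - Y) ξ) - ((κ + a₀ : ℝ) : ℂ) • ξ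
      = (star S₀ (S₀ ξ) - (κ : ℂ) • ξ + (star Y (Y ξ) - (a₀ : ℂ) • ξ))
        - (star S₀ (Y ξ) + star Y (S₀ ξ)) := by
  simp only [star_sub, clm_sub_apply, map_sub, Complex.ofReal_add, add_smul]
  abel

variable (S : ModularDatum H) (herg : S.Ergodic) (ω : Ultrafilter ℕ) (hω : (ω : Filter ℕ) ≤ atTop)

include herg hω in
/-- One step of the greedy construction: add or subtract a flowed copy of `y`. -/
theorem one_step (T : H →L[ℂ] H) {y : H →L[ℂ] H} (hy : y ∈ S.M) {S₀ : H →L[ℂ] H}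
    (hS₀ : S₀ ∈ S.M) (lam α β κ ε : ℝ) (hlam : 0 ≤ lam) (hε : 0 < ε) :
    ∃ (t : ℝ) (S₁ : H →L[ℂ] H), (S₁ = S₀ + S.flow t y ∨ S₁ = S₀ - S.flow t y) ∧
      ‖T (S₀ S.vac)‖ ^ 2
        - lam * (‖star S₀ (S₀ S.vac) - (κ : ℂ) • S.vac‖ ^ 2
            + (α + 2 * ‖y S.vac‖ ^ 2) * ‖star S₀ S.vac‖ ^ 2
            + (β + 2 * ‖star y S.vac‖ ^ 2) * ‖S₀ S.vac‖ ^ 2)
        + ultraMean ω (fun t : ℝ => ‖T (S.D.wave t (y S.vac))‖ ^ 2)
        - lam * (‖star y (y S.vac) - ((‖y S.vac‖ ^ 2 : ℝ) : ℂ) • S.vac‖ ^ 2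
            + α * ‖star y S.vac‖ ^ 2 + β * ‖y S.vac‖ ^ 2) - ε
      ≤ ‖T (S₁ S.vac)‖ ^ 2
        - lam * (‖star S₁ (S₁ S.vac) - ((κ + ‖y S.vac‖ ^ 2 : ℝ) : ℂ) • S.vac‖ ^ 2
            + α * ‖star S₁ S.vac‖ ^ 2 + β * ‖S₁ S.vac‖ ^ 2) := by
  have b₁ := bc_norm_T_wave S T (y S.vac)
  have b₂ := bc_cross S y (‖y S.vac‖ ^ 2) (star S₀ (S₀ S.vac) - (κ : ℂ) • S.vac)
  have b₃ := bc_norm_star_wave S S₀ (y S.vac)
  have b₄ := bc_norm_star_flow S y (S₀ S.vac)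
  have m₂ := mean_cross S herg ω hω hy (star S₀ (S₀ S.vac) - (κ : ℂ) • S.vac)
  have m₃ := mean_norm_star_wave S herg ω hω hS₀ (y S.vac)
  have m₄ := mean_norm_star_flow S herg ω hω hy (S₀ S.vac)
  have b₅ := ((b₂.const_mul 2).add (b₃.const_mul 2)).add (b₄.const_mul 2)
  have bΓ := b₁.sub (b₅.const_mul lam)
  have mΓ := ultraMean_sub ω b₁ (b₅.const_mul lam)
  rw [ultraMean_const_mul ω lam b₅,
    ultraMean_add ω ((b₂.const_mul 2).add (b₃.const_mul 2)) (b₄.const_mul 2),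
    ultraMean_add ω (b₂.const_mul 2) (b₃.const_mul 2),
    ultraMean_const_mul ω 2 b₂, ultraMean_const_mul ω 2 b₃, ultraMean_const_mul ω 2 b₄,
    m₂, m₃, m₄] at mΓ
  obtain ⟨t, ht⟩ := exists_lt_of_lt_ultraMean ω hω bΓ
    (m := ultraMean ω (fun t : ℝ => ‖T (S.D.wave t (y S.vac))‖ ^ 2)
      - lam * (2 * 0 + 2 * (‖y S.vac‖ ^ 2 * ‖star S₀ S.vac‖ ^ 2)
        + 2 * (‖star y S.vac‖ ^ 2 * ‖S₀ S.vac‖ ^ 2)) - ε) (by rw [mΓ]; linarith)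
  have hYξ : S.flow t y S.vac = S.D.wave t (y S.vac) := flow_apply_vac S t y
  have hYsξ : star (S.flow t y) S.vac = S.D.wave t (star y S.vac) := by
    rw [flow_star, flow_apply_vac]
  have hp : star (S.flow t y) (S.flow t y S.vac) - ((‖y S.vac‖ ^ 2 : ℝ) : ℂ) • S.vac
      = S.D.wave t (star y (y S.vac) - ((‖y S.vac‖ ^ 2 : ℝ) : ℂ) • S.vac) := by
    rw [wave_centered, flow_mul, flow_star, clm_mul_apply]
  have n1 : ‖T (S.flow t y S.vac)‖ ^ 2 = ‖T (S.D.wave t (y S.vac))‖ ^ 2 := by rw [hYξ]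
  have n2 : ‖star (S.flow t y) S.vac‖ ^ 2 = ‖star y S.vac‖ ^ 2 := by rw [hYsξ, norm_wave]
  have n3 : ‖S.flow t y S.vac‖ ^ 2 = ‖y S.vac‖ ^ 2 := by rw [hYξ, norm_wave]
  have n4 : ‖(star S₀ (S₀ S.vac) - (κ : ℂ) • S.vac)
        + (star (S.flow t y) (S.flow t y S.vac) - ((‖y S.vac‖ ^ 2 : ℝ) : ℂ) • S.vac)‖ ^ 2
      = ‖star S₀ (S₀ S.vac) - (κ : ℂ) • S.vac‖ ^ 2
        + 2 * (⟪star S₀ (S₀ S.vac) - (κ : ℂ) • S.vac,
            S.D.wave t (star y (y S.vac) - ((‖y S.vac‖ ^ 2 : ℝ) : ℂ) • S.vac)⟫_ℂ).re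
        + ‖star y (y S.vac) - ((‖y S.vac‖ ^ 2 : ℝ) : ℂ) • S.vac‖ ^ 2 := by
    rw [hp, @norm_add_sq ℂ, norm_wave]
    rfl
  have n5 : ‖star S₀ (S.flow t y S.vac) + star (S.flow t y) (S₀ S.vac)‖ ^ 2
      ≤ 2 * ‖star S₀ (S.D.wave t (y S.vac))‖ ^ 2 + 2 * ‖star (S.flow t y) (S₀ S.vac)‖ ^ 2 := by
    rw [← hYξ]
    have h1 := norm_add_le (star S₀ (S.flow t y S.vac)) (star (S.flow t y) (S₀ S.vac))
    nlinarith [sq_nonneg (‖star S₀ (S.flow t y S.vac)‖ - ‖star (S.flow t y) (S₀ S.vac)‖),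
      norm_nonneg (star S₀ (S.flow t y S.vac)), norm_nonneg (star (S.flow t y) (S₀ S.vac)),
      norm_nonneg (star S₀ (S.flow t y S.vac) + star (S.flow t y) (S₀ S.vac))]
  have hq := mul_le_mul_of_nonneg_left n5 hlam
  beta_reduce at ht
  rcases exists_sign_choice (T (S₀ S.vac)) (T (S.flow t y S.vac))
      ((star S₀ (S₀ S.vac) - (κ : ℂ) • S.vac)
        + (star (S.flow t y) (S.flow t y S.vac) - ((‖y S.vac‖ ^ 2 : ℝ) : ℂ) • S.vac))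
      (star S₀ (S.flow t y S.vac) + star (S.flow t y) (S₀ S.vac))
      (star S₀ S.vac) (star (S.flow t y) S.vac) (S₀ S.vac) (S.flow t y S.vac) lam α β with hc | hc
  · refine ⟨t, S₀ + S.flow t y, Or.inl rfl, ?_⟩
    have e1 : T ((S₀ + S.flow t y) S.vac) = T (S₀ S.vac) + T (S.flow t y S.vac) := by
      rw [clm_add_apply, map_add]
    have e3 : star (S₀ + S.flow t y) S.vac = star S₀ S.vac + star (S.flow t y) S.vac := by
      rw [star_add, clm_add_apply]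
    have e4 : (S₀ + S.flow t y) S.vac = S₀ S.vac + S.flow t y S.vac := by
      rw [clm_add_apply]
    rw [expand_add, e1, e3, e4]
    rw [n1, n2, n3, n4] at hc
    linarith
  · refine ⟨t, S₀ - S.flow t y, Or.inr rfl, ?_⟩
    have e1 : T ((S₀ - S.flow t y) S.vac) = T (S₀ S.vac) - T (S.flow t y S.vac) := by
      rw [clm_sub_apply, map_sub]
    have e3 : star (S₀ - S.flow t y) S.vac = star S₀ S.vac - star (S.flow t y) S.vac := by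
      rw [star_sub, clm_sub_apply]
    have e4 : (S₀ - S.flow t y) S.vac = S₀ S.vac - S.flow t y S.vac := by
      rw [clm_sub_apply]
    rw [expand_sub, e1, e3, e4]
    rw [n1, n2, n3, n4] at hc
    linarith

end OneStep

end Crest.Agent.S0112
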